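import Vale.Agent.P088.R2.H551.E.Cur

/-!
# P088, stage 3: two zone inequalities give one
-/

open MeasureTheory Set Filter
open scoped ContDiff Topology

noncomputable section

namespace Vale.Agent.P088.R2.H660.G

open Vale.Agent.P088.R2.H961.GW Vale.Agent.P088.R2.H960.W Vale.Agent.P088.R2.H551.E

variable {E ι : Type*} [NormedAddCommGroup E] [NormedSpace ℝ E] [Fintype ι]
variable [MeasureSpace E] [FiniteDimensional ℝ E] [BorelSpace E]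
  [(volume : Measure E).IsAddHaarMeasure]
variable {σ τ : Sl E ι} {U : Set E} {θ v₁ v₂ W χ χ₁ χ₂ : E → ℝ} {m m₁ m₂ c c₁ c₂ : Q8 E}

omit [MeasureSpace E] [FiniteDimensional ℝ E] [BorelSpace E]
  [(volume : Measure E).IsAddHaarMeasure] in
theorem te_dn (ok : σ.Ok U θ) (ot : τ.Ok U θ) (hv₁ : Sm U v₁) (hv₂ : Sm U v₂) (hW : Sm U W)
    (hχ : Sm U χ) {a b : E → ℝ} (ha : Te U a) (hb : Te U b) :
    Te U fun z => χ z ^ 2 * dn σ τ v₁ v₂ W a b z := by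
  have : Te U fun z => χ z ^ 2 * (sqd σ τ v₁ v₂ W a b z + sta σ τ v₁ v₂ W a b z) :=
    ((tsqd ok ot hv₁ hv₂ hW ha hb).add ok.op (tsta ok ot hv₁ hv₂ hW ha hb)).mul_left ok.op
      (hχ.pow 2)
  exact this

/-- **Two zones give one.** -/
theorem zone_add (ok : σ.Ok U θ) (ot : τ.Ok U θ) (hv₁ : Sm U v₁) (hv₂ : Sm U v₂) (hW : Sm U W)
    (h₁ : Sm U χ₁) (h₂ : Sm U χ₂) (hs : ∀ z ∈ U, χ₁ z ^ 2 + χ₂ z ^ 2 = χ z ^ 2)
    (z₁ : Zone σ τ U θ v₁ v₂ W χ₁ m₁ c₁) (z₂ : Zone σ τ U θ v₁ v₂ W χ₂ m₂ c₂)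
    (cm : m.Ct U) (cc : c.Ct U) (cm₁ : m₁.Ct U) (cc₁ : c₁.Ct U) (cm₂ : m₂.Ct U)
    (cc₂ : c₂.Ct U)
    (pay : ∀ z ∈ U, ∀ a b : E → ℝ, m.dens σ τ v₁ v₂ W a b z + (c₁.dens σ τ v₁ v₂ W a b z +
      c₂.dens σ τ v₁ v₂ W a b z) ≤ c.dens σ τ v₁ v₂ W a b z +
      (m₁.dens σ τ v₁ v₂ W a b z + m₂.dens σ τ v₁ v₂ W a b z)) :
    Zone σ τ U θ v₁ v₂ W χ m c := by
  intro a b ha hb
  have hU := ok.op
  have i0 := Q8.int_dens ok ot hv₁ hv₂ hW ha hb cm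
  have j0 := Q8.int_dens ok ot hv₁ hv₂ hW ha hb cc
  have i1 := Q8.int_dens ok ot hv₁ hv₂ hW ha hb cm₁
  have j1 := Q8.int_dens ok ot hv₁ hv₂ hW ha hb cc₁
  have i2 := Q8.int_dens ok ot hv₁ hv₂ hW ha hb cm₂
  have j2 := Q8.int_dens ok ot hv₁ hv₂ hW ha hb cc₂
  have key : In U θ (m.dens σ τ v₁ v₂ W a b) + (In U θ (c₁.dens σ τ v₁ v₂ W a b) +
      In U θ (c₂.dens σ τ v₁ v₂ W a b)) ≤ In U θ (c.dens σ τ v₁ v₂ W a b) +
      (In U θ (m₁.dens σ τ v₁ v₂ W a b) + In U θ (m₂.dens σ τ v₁ v₂ W a b)) := by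
    unfold In
    rw [← integral_add' j1 j2, ← integral_add' i0 (j1.add j2), ← integral_add' i1 i2,
      ← integral_add' j0 (i1.add i2)]
    refine setIntegral_mono_on (i0.add (j1.add j2)) (j0.add (i1.add i2)) hU.measurableSet
      fun z hz => ?_
    have h1 := mul_le_mul_of_nonneg_left (pay z hz a b) (ok.tp z hz).le
    simp only [Pi.add_apply]
    linarith
  have t1 := te_dn ok ot hv₁ hv₂ hW h₁ ha hb
  have t2 := te_dn ok ot hv₁ hv₂ hW h₂ ha hb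
  have e : In U θ (fun z => χ z ^ 2 * dn σ τ v₁ v₂ W a b z) =
      In U θ (fun z => χ₁ z ^ 2 * dn σ τ v₁ v₂ W a b z) +
      In U θ (fun z => χ₂ z ^ 2 * dn σ τ v₁ v₂ W a b z) := by
    rw [← In_add hU ok.ts t1 t2]
    exact In_congr hU fun z hz => by rw [← hs z hz]; ring
  have := z₁ a b ha hb
  have := z₂ a b ha hb
  rw [e]
  linarith

end Vale.Agent.P088.R2.H660.G
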