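import Vale.Agent.P088.R2.H660.P.Zi

/-!
# P088, stage 3: cut-offs `χ cos φ`, `χ sin φ`
-/

open MeasureTheory Set Filter
open scoped ContDiff Topology

noncomputable section

namespace Vale.Agent.P088.R2.H660.G

open Vale.Agent.P088.R2.H961.GW Vale.Agent.P088.R2.H644 Vale.Agent.P088.R2.H960.W
  Vale.Agent.P088.R2.H230.W Vale.Agent.P088.R2.H551.E Vale.Agent.P088.R2.H660.P

variable {E ι : Type*} [NormedAddCommGroup E] [NormedSpace ℝ E] [Fintype ι]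
variable {σ : Sl E ι} {Ω : Set E} {θ χ φ : E → ℝ} {z : E}

/-- The two cut-offs. -/
def ci (χ φ : E → ℝ) (z : E) : ℝ := χ z * Real.cos (φ z)
def co (χ φ : E → ℝ) (z : E) : ℝ := χ z * Real.sin (φ z)

omit [NormedAddCommGroup E] [NormedSpace ℝ E] in
theorem ci_co (χ φ : E → ℝ) (z : E) : ci χ φ z ^ 2 + co χ φ z ^ 2 = χ z ^ 2 := by
  unfold ci co
  have := Real.cos_sq_add_sin_sq (φ z)
  calc _ = χ z ^ 2 * (Real.cos (φ z) ^ 2 + Real.sin (φ z) ^ 2) := by ring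
    _ = _ := by rw [this, mul_one]

theorem scos (hφ : Sm Ω φ) : Sm Ω fun z => Real.cos (φ z) :=
  Real.contDiff_cos.comp_contDiffOn hφ

theorem ssin (hφ : Sm Ω φ) : Sm Ω fun z => Real.sin (φ z) :=
  Real.contDiff_sin.comp_contDiffOn hφ

theorem sci (hχ : Sm Ω χ) (hφ : Sm Ω φ) : Sm Ω (ci χ φ) := hχ.mul (scos hφ)
theorem sco (hχ : Sm Ω χ) (hφ : Sm Ω φ) : Sm Ω (co χ φ) := hχ.mul (ssin hφ)

omit [Fintype ι] in
theorem D_cos (σ : Sl E ι) (hΩ : IsOpen Ω) (hφ : Sm Ω φ) (i : ι) (hz : z ∈ Ω) :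
    σ.D i (fun z => Real.cos (φ z)) z = -(Real.sin (φ z) * σ.D i φ z) := by
  simp only [Sl.D]
  rw [fderiv_cos (hφ.diff hΩ hz)]
  simp only [_root_.smul_apply, smul_eq_mul]
  ring

omit [Fintype ι] in
theorem D_sin (σ : Sl E ι) (hΩ : IsOpen Ω) (hφ : Sm Ω φ) (i : ι) (hz : z ∈ Ω) :
    σ.D i (fun z => Real.sin (φ z)) z = Real.cos (φ z) * σ.D i φ z := by
  simp only [Sl.D]
  rw [fderiv_sin (hφ.diff hΩ hz)]
  simp only [_root_.smul_apply, smul_eq_mul]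
  ring

omit [Fintype ι] in
theorem D_ci (σ : Sl E ι) (hΩ : IsOpen Ω) (hχ : Sm Ω χ) (hφ : Sm Ω φ) (i : ι) (hz : z ∈ Ω) :
    σ.D i (ci χ φ) z = Real.cos (φ z) * σ.D i χ z - χ z * Real.sin (φ z) * σ.D i φ z := by
  have := D_mul σ hΩ hχ (scos hφ) i hz
  unfold ci
  rw [this, D_cos σ hΩ hφ i hz]; ring

omit [Fintype ι] in
theorem D_co (σ : Sl E ι) (hΩ : IsOpen Ω) (hχ : Sm Ω χ) (hφ : Sm Ω φ) (i : ι) (hz : z ∈ Ω) :
    σ.D i (co χ φ) z = Real.sin (φ z) * σ.D i χ z + χ z * Real.cos (φ z) * σ.D i φ z := by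
  have := D_mul σ hΩ hχ (ssin hφ) i hz
  unfold co
  rw [this, D_sin σ hΩ hφ i hz]; ring

theorem dD_ci (σ : Sl E ι) (hΩ : IsOpen Ω) (hχ : Sm Ω χ) (hφ : Sm Ω φ) (hz : z ∈ Ω) :
    dD σ (ci χ φ) z ≤ 2 * (Real.cos (φ z) ^ 2 * dD σ χ z) +
      2 * (χ z ^ 2 * Real.sin (φ z) ^ 2 * dD σ φ z) := by
  unfold dD
  rw [Finset.mul_sum, Finset.mul_sum, Finset.mul_sum, Finset.mul_sum, ← Finset.sum_add_distrib]
  refine Finset.sum_le_sum fun i _ => ?_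
  rw [D_ci σ hΩ hχ hφ i hz]
  nlinarith [sq_nonneg (Real.cos (φ z) * σ.D i χ z + χ z * Real.sin (φ z) * σ.D i φ z)]

theorem dD_co (σ : Sl E ι) (hΩ : IsOpen Ω) (hχ : Sm Ω χ) (hφ : Sm Ω φ) (hz : z ∈ Ω) :
    dD σ (co χ φ) z ≤ 2 * (Real.sin (φ z) ^ 2 * dD σ χ z) +
      2 * (χ z ^ 2 * Real.cos (φ z) ^ 2 * dD σ φ z) := by
  unfold dD
  rw [Finset.mul_sum, Finset.mul_sum, Finset.mul_sum, Finset.mul_sum, ← Finset.sum_add_distrib]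
  refine Finset.sum_le_sum fun i _ => ?_
  rw [D_co σ hΩ hχ hφ i hz]
  nlinarith [sq_nonneg (Real.sin (φ z) * σ.D i χ z - χ z * Real.cos (φ z) * σ.D i φ z)]

theorem Γ_cos (ok : σ.Ok Ω θ) (f : E → ℝ) (hφ : Sm Ω φ) (hz : z ∈ Ω) :
    σ.Γ f (fun z => Real.cos (φ z)) z = -(Real.sin (φ z) * σ.Γ f φ z) := by
  unfold Sl.Γ
  rw [Finset.mul_sum, ← Finset.sum_neg_distrib]
  refine Finset.sum_congr rfl fun i _ => ?_
  rw [Finset.mul_sum, ← Finset.sum_neg_distrib]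
  refine Finset.sum_congr rfl fun j _ => ?_
  rw [D_cos σ ok.op hφ j hz]; ring

theorem Λ_cos (ok : σ.Ok Ω θ) (hφ : Sm Ω φ) (hz : z ∈ Ω) :
    σ.Λ (fun z => Real.cos (φ z)) z =
      -(Real.sin (φ z) * σ.Λ φ z) - Real.cos (φ z) * σ.Γ φ φ z := by
  have hΩ := ok.op
  unfold Sl.Λ Sl.Γ
  rw [Finset.mul_sum, Finset.mul_sum, ← Finset.sum_neg_distrib, ← Finset.sum_sub_distrib]
  refine Finset.sum_congr rfl fun i _ => ?_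
  rw [Finset.mul_sum, Finset.mul_sum, ← Finset.sum_neg_distrib, ← Finset.sum_sub_distrib]
  refine Finset.sum_congr rfl fun j _ => ?_
  have e1 : σ.D i (σ.D j (fun z => Real.cos (φ z))) z =
      -(Real.cos (φ z) * σ.D i φ z * σ.D j φ z + Real.sin (φ z) * σ.D i (σ.D j φ) z) := by
    have e2 : ∀ w ∈ Ω, σ.D j (fun z => Real.cos (φ z)) w =
        (-1) * (Real.sin (φ w) * σ.D j φ w) := fun w hw => by
      rw [D_cos σ hΩ hφ j hw]; ring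
    rw [D_congr σ hΩ e2 i hz, D_cmul σ hΩ (-1) ((ssin hφ).mul (ok.sD hφ j)) i hz,
      D_mul σ hΩ (ssin hφ) (ok.sD hφ j) i hz, D_sin σ hΩ hφ i hz]
    ring
  rw [e1, D_cos σ hΩ hφ j hz]
  ring

theorem Λ_ci (ok : σ.Ok Ω θ) (hχ : Sm Ω χ) (hφ : Sm Ω φ) (hz : z ∈ Ω) :
    σ.Λ (ci χ φ) z = Real.cos (φ z) * σ.Λ χ z - χ z * Real.sin (φ z) * σ.Λ φ z -
      χ z * Real.cos (φ z) * σ.Γ φ φ z - 2 * (Real.sin (φ z) * σ.Γ χ φ z) := by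
  have := L_mul ok hχ (scos hφ) hz
  unfold ci
  rw [this, Λ_cos ok hφ hz, Γ_cos ok χ hφ hz]
  ring

private lemma four {a b c d : ℝ} : (a - b - c - d) ^ 2 ≤ 4 * (a ^ 2 + b ^ 2 + c ^ 2 + d ^ 2) := by
  nlinarith [sq_nonneg (a + b), sq_nonneg (a + c), sq_nonneg (a + d), sq_nonneg (b - c),
    sq_nonneg (b - d), sq_nonneg (c - d)]

theorem Λ_ci_sq (ok : σ.Ok Ω θ) (hχ : Sm Ω χ) (hφ : Sm Ω φ) (hz : z ∈ Ω) :
    σ.Λ (ci χ φ) z ^ 2 ≤ 4 * (Real.cos (φ z) ^ 2 * σ.Λ χ z ^ 2 +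
      χ z ^ 2 * Real.sin (φ z) ^ 2 * σ.Λ φ z ^ 2 +
      χ z ^ 2 * Real.cos (φ z) ^ 2 * σ.Γ φ φ z ^ 2 +
      4 * (Real.sin (φ z) ^ 2 * σ.Γ χ φ z ^ 2)) := by
  rw [Λ_ci ok hχ hφ hz]
  refine four.trans (le_of_eq ?_)
  ring

end Vale.Agent.P088.R2.H660.G
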