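import Vale.Agent.P088.R2.H660.G.Sum

/-!
# P088, stage 3: the flat pass, the inner and the outer zone with the cut `φ = Hc ∘ T`
-/

open MeasureTheory Set Filter
open scoped ContDiff Topology

noncomputable section

namespace Vale.Agent.P088.R2.H660.G

open Vale.Agent.P088.R2.H961.GW Vale.Agent.P088.R2.H644 Vale.Agent.P088.R2.H960.W
  Vale.Agent.P088.R2.H230.W Vale.Agent.P088.R2.H551.E Vale.Agent.P088.R2.H660.P
open Vale.Agent.P088.R2.H747.SW (MA coA MA_ct coA_ct rh rh_nonneg sm_cut Dz Gz)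
open Vale.Agent.P088.R2.H747.P (Dt)

theorem sb_mono {E ι : Type*} [NormedAddCommGroup E] [NormedSpace ℝ E] [Fintype ι]
    [DecidableEq ι] {σ : Sl E ι} {ε ε' : ℝ} {z : E} (h : Sb σ ε z) (he : ε ≤ ε') :
    Sb σ ε' z :=
  ⟨h.sy, fun i j => (h.ss i j).trans he, fun l i j => (h.s1 l i j).trans he, h.k1, h.e1⟩

section top

variable {E ι : Type*} [NormedAddCommGroup E] [NormedSpace ℝ E] [Fintype ι]
  {σ τ : Sl E ι} {Ω : Set E} {θ v₁ v₂ W G χ T : E → ℝ} {M κ c : ℝ}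

omit [Fintype ι] in
theorem off_t (χ : E → ℝ) : ∀ z ∈ (univ : Set E), z ∉ tsupport χ → χ z = 0 :=
  fun _ _ h => image_eq_zero_of_notMem_tsupport h

omit [NormedSpace ℝ E] in
/-- The open set and the closed set of the inner zone. -/
theorem set_i (hΩ : IsOpen Ω) (hT : ContinuousOn T Ω) (hs : tsupport χ ⊆ Ω) :
    IsOpen (Ω ∩ T ⁻¹' Iio 3) ∧ IsClosed (tsupport χ ∩ T ⁻¹' Iic 2) ∧
      univ ∩ (tsupport χ ∩ T ⁻¹' Iic 2) ⊆ Ω ∩ T ⁻¹' Iio 3 := by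
  refine ⟨hT.isOpen_inter_preimage hΩ isOpen_Iio,
    (hT.mono hs).preimage_isClosed_of_isClosed (isClosed_tsupport χ) isClosed_Iic, ?_⟩
  rintro z ⟨-, h1, h2⟩
  refine ⟨hs h1, ?_⟩
  have h3 : T z ≤ 2 := h2
  show T z < 3
  linarith

omit [NormedSpace ℝ E] in
/-- The open set and the closed set of the outer zone. -/
theorem set_o (hΩ : IsOpen Ω) (hT : ContinuousOn T Ω) (hs : tsupport χ ⊆ Ω) :
    IsOpen (Ω ∩ T ⁻¹' Ioi (1 / 2)) ∧ IsClosed (tsupport χ ∩ T ⁻¹' Ici 1) ∧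
      univ ∩ (tsupport χ ∩ T ⁻¹' Ici 1) ⊆ Ω ∩ T ⁻¹' Ioi (1 / 2) := by
  refine ⟨hT.isOpen_inter_preimage hΩ isOpen_Ioi,
    (hT.mono hs).preimage_isClosed_of_isClosed (isClosed_tsupport χ) isClosed_Ici, ?_⟩
  rintro z ⟨-, h1, h2⟩
  refine ⟨hs h1, ?_⟩
  have h3 : 1 ≤ T z := h2
  show 1 / 2 < T z
  linarith

omit [NormedSpace ℝ E] in
theorem ci_off : ∀ z ∈ (univ : Set E), z ∉ tsupport χ ∩ T ⁻¹' Iic 2 →
    ci χ (fun z => Hc (T z)) z = 0 := by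
  intro z hz hn
  by_contra hc
  refine hn ⟨?_, ?_⟩
  · by_contra h
    exact hc (by unfold ci; rw [image_eq_zero_of_notMem_tsupport h, zero_mul])
  · refine Hc_cos (x := T z) fun h => hc ?_
    unfold ci
    rw [h, mul_zero]

omit [NormedSpace ℝ E] in
theorem co_off : ∀ z ∈ (univ : Set E), z ∉ tsupport χ ∩ T ⁻¹' Ici 1 →
    co χ (fun z => Hc (T z)) z = 0 := by
  intro z hz hn
  by_contra hc
  refine hn ⟨?_, ?_⟩
  · by_contra h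
    exact hc (by unfold co; rw [image_eq_zero_of_notMem_tsupport h, zero_mul])
  · refine Hc_sin (x := T z) fun h => hc ?_
    unfold co
    rw [h, mul_zero]

theorem ci_t (χ φ : E → ℝ) : ∀ z ∈ (univ : Set E), z ∉ tsupport χ → ci χ φ z = 0 := by
  intro z hz hn
  unfold ci
  rw [image_eq_zero_of_notMem_tsupport hn, zero_mul]

theorem co_t (χ φ : E → ℝ) : ∀ z ∈ (univ : Set E), z ∉ tsupport χ → co χ φ z = 0 := by
  intro z hz hn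
  unfold co
  rw [image_eq_zero_of_notMem_tsupport hn, zero_mul]

theorem sm_ci {φ : E → ℝ} (hΩ : IsOpen Ω) (hχ : Sm univ χ) (hφ : Sm Ω φ)
    (hs : tsupport χ ⊆ Ω) : Sm univ (ci χ φ) :=
  sm_cut isOpen_univ hΩ (isClosed_tsupport χ) (by rintro z ⟨-, h⟩; exact hs h)
    (sci (hχ.mono (subset_univ _)) hφ) (ci_t χ φ)

theorem sm_co {φ : E → ℝ} (hΩ : IsOpen Ω) (hχ : Sm univ χ) (hφ : Sm Ω φ)
    (hs : tsupport χ ⊆ Ω) : Sm univ (co χ φ) :=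
  sm_cut isOpen_univ hΩ (isClosed_tsupport χ) (by rintro z ⟨-, h⟩; exact hs h)
    (sco (hχ.mono (subset_univ _)) hφ) (co_t χ φ)

/-- The level of `|W_x|²` from `T`. -/
theorem Tv_lt {z : E} (hM : 0 < M) (hκ : 0 < κ) (hG : 1 ≤ G z) (h : Tv σ W G M κ z < c) :
    nn (gr σ W z) ^ 2 ≤ c * M * κ * G z := by
  have hp : 0 < M * κ * G z := by positivity
  unfold Tv at h
  rw [div_lt_iff₀ hp] at h
  rw [← dD_nn]
  linarith

theorem Tv_gt {z : E} (hM : 0 < M) (hκ : 0 < κ) (hG : 1 ≤ G z) (h : c < Tv σ W G M κ z) :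
    c * M * κ * G z ≤ nn (gr σ W z) ^ 2 := by
  have hp : 0 < M * κ * G z := by positivity
  unfold Tv at h
  rw [lt_div_iff₀ hp] at h
  rw [← dD_nn]
  linarith

theorem Tv_le {z : E} (hM : 0 < M) (hκ : 0 < κ) (hG : 1 ≤ G z) (h : Tv σ W G M κ z ≤ c) :
    nn (gr σ W z) ^ 2 ≤ c * M * κ * G z := by
  have hp : 0 < M * κ * G z := by positivity
  unfold Tv at h
  rw [div_le_iff₀ hp] at h
  rw [← dD_nn]
  linarith

theorem Tv_ge {z : E} (hM : 0 < M) (hκ : 0 < κ) (hG : 1 ≤ G z) (h : c ≤ Tv σ W G M κ z) :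
    c * M * κ * G z ≤ nn (gr σ W z) ^ 2 := by
  have hp : 0 < M * κ * G z := by positivity
  unfold Tv at h
  rw [le_div_iff₀ hp] at h
  rw [← dD_nn]
  linarith

end top

variable (E ι : Type*) [NormedAddCommGroup E] [NormedSpace ℝ E] [Fintype ι] [DecidableEq ι]
  [MeasureSpace E] [FiniteDimensional ℝ E] [BorelSpace E]
  [(volume : Measure E).IsAddHaarMeasure]

/-- The body of `RowPOutV`. -/
def OutB (C₁ c₀ c₂ η κ₀ M₁ κ C N₁ ε : ℝ) : Prop :=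
  ∀ (σ τ : Sl E ι) (U Ω S : Set E) (θ v₁ v₂ W G χ : E → ℝ) (e : ι → E → ℝ),
    σ.Ok U θ → τ.Ok U θ → Sm U v₁ → Sm U v₂ → Sm U W → Sm U χ → IsOpen Ω → Ω ⊆ U → Sm Ω G →
    (∀ i, Sm Ω (e i)) →
    IsClosed S → U ∩ S ⊆ Ω → (∀ z ∈ U, z ∉ S → χ z = 0) →
    (∀ z ∈ Ω, Sb σ ε z ∧ Sb τ ε z ∧ Wb σ τ v₁ v₂ W G κ C₁ C z ∧ N₁ ≤ G z ∧
      M₁ * κ * G z ≤ nn (gr σ W z) ^ 2 ∧ dd (fun j => e j z) (fun j => e j z) = 1 ∧
      (∀ i, nn (fun j => σ.D i (e j) z) ≤ 1) ∧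
      ∀ A B : ι → ℝ, c₀ * κ * G z * (dd A A + dd B B) ≤ Ch.TH σ τ W z A B +
        tc σ (cv σ e W fun l z => -(c₂ * κ * G z) * e l z) W z A + tc τ (cq τ W G) W z B) →
    Zone σ τ U θ v₁ v₂ W χ ((H747.SW.MA σ τ W (fun z => c₀ * κ * G z) κ₀).sm fun z => χ z ^ 2)
      (H747.SW.coA σ τ W (fun z => c₀ * κ * G z) χ η)

variable {E ι} {σ τ : Sl E ι} {Ω : Set E} {θ v₁ v₂ W G K χ : E → ℝ} {h e : ι → E → ℝ}
  {κ C₁ C β ε ε₁ εz Cz M η N₁ : ℝ}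

/-- **The inner zone with its cut.** -/
theorem z_in [Nonempty ι] (H : PZ E ι εz Cz) (ok : σ.Ok univ θ) (ot : τ.Ok univ θ)
    (hρ : ∀ z, σ.ρ z = 1) (hk : ∀ i z, σ.k i z = 0) (hv₁ : Sm univ v₁) (hv₂ : Sm univ v₂)
    (hW : Sm univ W) (hχ : Sm univ χ) (hΩ : IsOpen Ω) (hG : Sm Ω G) (hK : Sm Ω K)
    (hh : ∀ i, Sm Ω (h i)) (hs : tsupport χ ⊆ Ω) (hM : 1 ≤ M)
    (na : NA (Fintype.card ι) C₁ (3 * M) β κ C ε Cz)
    (D : ∀ z ∈ Ω, Dt σ τ v₁ v₂ W G K h e κ C₁ C β ε εz z)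
    (ng : ∀ z ∈ Ω, NG (Fintype.card ι) (3 * M) β κ C Cz (G z)) :
    Zone σ τ univ θ v₁ v₂ W (ci χ fun z => Hc (Tv σ W G M κ z))
      ((MIn τ W G κ β).sm fun z => ci χ (fun z => Hc (Tv σ W G M κ z)) z ^ 2)
      (cIn σ τ W G (ci χ fun z => Hc (Tv σ W G M κ z)) κ Cz) := by
  have M0 : 0 < M := by linarith
  have κ0 := na.κ0
  have G1 : ∀ z ∈ Ω, 1 ≤ G z := fun z hz => (D z hz).wb.G1
  have ok' := Ok_mono ok hΩ (subset_univ _)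
  have sT : Sm Ω (Tv σ W G M κ) := sTv ok' (hW.mono (subset_univ _)) hG G1 M0 κ0
  obtain ⟨o1, c1, i1⟩ := set_i hΩ sT.continuousOn hs
  refine zone_in H ok ot hρ hk hv₁ hv₂ hW (sm_ci hΩ hχ (sHt sT) hs) o1 (subset_univ _) c1 i1
    ci_off (hK.mono inter_subset_left) (hG.mono inter_subset_left)
    (fun i => (hh i).mono inter_subset_left) (fun z hz => ?_) na fun z hz => ng z hz.1
  have d := D z hz.1
  exact ⟨d.sx, d.sy, d.wb, d.g2, Tv_lt M0 κ0 (G1 z hz.1) hz.2, d.K1, d.K2, d.dK, d.dh, d.h2,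
    d.G2, d.ct⟩

/-- **The outer zone with its cut.** -/
theorem z_out (ho : OutB E ι C₁ (1 / 8) (1 / 3) η (1 / 2) (M / 2) κ C N₁ ε₁)
    (ok : σ.Ok univ θ) (ot : τ.Ok univ θ)
    (hv₁ : Sm univ v₁) (hv₂ : Sm univ v₂)
    (hW : Sm univ W) (hχ : Sm univ χ) (hΩ : IsOpen Ω) (hG : Sm Ω G)
    (he : ∀ i, Sm Ω (e i)) (hs : tsupport χ ⊆ Ω) (hM : 1 ≤ M) (κ0 : 0 < κ) (hε : ε ≤ ε₁)
    (D : ∀ z ∈ Ω, Dt σ τ v₁ v₂ W G K h e κ C₁ C β ε εz z) (ng : ∀ z ∈ Ω, N₁ ≤ G z) :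
    Zone σ τ univ θ v₁ v₂ W (co χ fun z => Hc (Tv σ W G M κ z))
      ((MA σ τ W (fun z => 1 / 8 * κ * G z) (1 / 2)).sm
        fun z => co χ (fun z => Hc (Tv σ W G M κ z)) z ^ 2)
      (coA σ τ W (fun z => 1 / 8 * κ * G z) (co χ fun z => Hc (Tv σ W G M κ z)) η) := by
  have M0 : 0 < M := by linarith
  have G1 : ∀ z ∈ Ω, 1 ≤ G z := fun z hz => (D z hz).wb.G1
  have ok' := Ok_mono ok hΩ (subset_univ _)
  have sT : Sm Ω (Tv σ W G M κ) := sTv ok' (hW.mono (subset_univ _)) hG G1 M0 κ0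
  obtain ⟨o1, c1, i1⟩ := set_o hΩ sT.continuousOn hs
  refine ho σ τ univ (Ω ∩ Tv σ W G M κ ⁻¹' Ioi (1 / 2)) (tsupport χ ∩ Tv σ W G M κ ⁻¹' Ici 1)
    θ v₁ v₂ W G _ e ok ot hv₁ hv₂ hW (sm_co hΩ hχ (sHt sT) hs) o1 (subset_univ _)
    (hG.mono inter_subset_left) (fun i => (he i).mono inter_subset_left) c1 i1 co_off
    fun z hz => ?_
  have d := D z hz.1
  have T1 := Tv_gt M0 κ0 (G1 z hz.1) hz.2
  have G0 := G1 z hz.1
  refine ⟨sb_mono d.sx hε, sb_mono d.sy hε, d.wb, ng z hz.1, by linarith, d.ee, d.de, ?_⟩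
  refine d.co ?_
  rw [← nn_sq]
  have : 0 < 1 / 2 * M * κ * G z := by positivity
  linarith

end Vale.Agent.P088.R2.H660.G
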