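import Vale.Agent.P088.R2.H660.G.Nums

/-!
# P088, stage 3: the flat pass, the theorem
-/

open MeasureTheory Set Filter
open scoped ContDiff Topology

noncomputable section

namespace Vale.Agent.P088.R2.H660.G

open Vale.Agent.P088.R2.H961.GW Vale.Agent.P088.R2.H644 Vale.Agent.P088.R2.H960.W
  Vale.Agent.P088.R2.H230.W Vale.Agent.P088.R2.H551.E Vale.Agent.P088.R2.H660.P
open Vale.Agent.P088.R2.H747.P (Dt)

variable (E ι : Type*) [NormedAddCommGroup E] [NormedSpace ℝ E] [Fintype ι] [DecidableEq ι]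
  [MeasureSpace E] [FiniteDimensional ℝ E] [BorelSpace E]
  [(volume : Measure E).IsAddHaarMeasure]

/-- **The zone of the flat pass.** -/
theorem zoneP [Nonempty ι] (hN : 3 ≤ Fintype.card ι) : ZoneP E ι := by
  intro C₁ C₁1
  have N3 : (3:ℝ) ≤ Fintype.card ι := by exact_mod_cast hN
  obtain ⟨B, hB⟩ := exists_HB
  obtain ⟨εz, Cz, hεz, hCz, H⟩ := H285.W.rowPZP E ι
  obtain ⟨η, η0, η1, hM⟩ := nums (Cz := Cz) hB.one N3 C₁1
  obtain ⟨M₀, hM₀, HO⟩ := H858.P.rowPOutV (E := E) (ι := ι) C₁ (1 / 8) (1 / 3) η (1 / 2) C₁1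
    (by norm_num) (by norm_num) (by norm_num) (by norm_num) η0 η1 (by linarith)
  obtain ⟨M, β, CP, M1, hM2, β0, CP0, hβ, hρ⟩ := hM M₀ hM₀
  refine ⟨β, εz, CP, β0, hεz, CP0, fun κ κ0 κ1 => ?_⟩
  obtain ⟨ρ, ρ0, g⟩ := hρ κ κ0 κ1
  refine ⟨ρ, ρ0, fun C hC => ?_⟩
  obtain ⟨N₀, ε₁, hN₀, hε₁, ho⟩ := HO (M / 2) κ C hM2 κ0 κ1 hC
  obtain ⟨N₁, hN₁, hG₁⟩ := numsG (Cz := Cz) N3 M1 β0 κ0 hC hN₀
  have ε0 : 0 < 1 / (20 * (Fintype.card ι : ℝ)) := by positivity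
  have na : NA (Fintype.card ι) C₁ (3 * M) β κ C (min ε₁ (1 / (20 * (Fintype.card ι : ℝ)))) Cz :=
    { N3 := N3, C₁1 := C₁1, C1 := hC, M1 := by linarith, β0 := β0, β1 := hβ, κ0 := κ0, κ1 := κ1
      ε1 := by
        have h1 := min_le_right ε₁ (1 / (20 * (Fintype.card ι : ℝ)))
        rw [le_div_iff₀ (by positivity)] at h1
        linarith
      Cz0 := hCz }
  refine ⟨N₁, min ε₁ (1 / (20 * (Fintype.card ι : ℝ))), hN₁, lt_min hε₁ ε0, ?_⟩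
  intro σ τ Ω θ v₁ v₂ W G K χ h e ok ot hρ' hk hv₁ hv₂ hW hχ hΩ hG hK hh he hs D
  exact zone_gl H ho hB g na (min_le_left _ _) ok ot hρ' hk hv₁ hv₂ hW hχ hΩ hG hK hh he hs
    (fun z hz => (D z hz).2) (fun z hz => (hG₁ _ (D z hz).1).1)
    (fun z hz => (hG₁ _ (D z hz).1).2.1) (fun z hz => (hG₁ _ (D z hz).1).2.2.1)
    fun z hz => (hG₁ _ (D z hz).1).2.2.2

end Vale.Agent.P088.R2.H660.G
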