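import Mathlib

/-!
# P088, stage 3: the glue of the two zones of the flat pass, numbers
-/

noncomputable section

namespace Vale.Agent.P088.R2.H660.G

/-- The numbers of the glue. -/
structure GN (M κ β c₀ η Cz δ ρ CP : ℝ) : Prop where
  M1 : 1 ≤ M
  κ0 : 0 < κ
  κ1 : κ ≤ 1
  β0 : 0 < β
  c0 : 0 < c₀
  c1 : c₀ ≤ 1
  η0 : 0 < η
  η1 : η ≤ 1 / 200
  δ0 : 0 < δ
  d1 : 43800 * Cz ^ 2 * δ ≤ c₀ / 12
  d2 : 5000 * δ ≤ c₀
  d3 : 64 * η * δ ≤ β / 2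
  d4 : 20 * (c₀ * δ) ≤ η
  d5 : 1200 * (η * (M * δ)) ≤ 1
  ρ0 : 0 < ρ
  r1 : ρ ≤ β * κ
  r2 : ρ * (1 / κ ^ 2 + 21 / 10 * (M / κ)) ≤ 1
  r3 : ρ * (20 / 19 * (1 / κ ^ 2) + 1 / κ) ≤ c₀ / 24
  r4 : ρ ≤ c₀ * κ / 6
  r5 : ρ ≤ 1 / 48
  cP : 43800 * Cz ^ 2 + 1000 + 7 / η ≤ CP

variable {M κ β c₀ η Cz δ ρ CP : ℝ}

theorem GN.δ1 (g : GN M κ β c₀ η Cz δ ρ CP) : δ ≤ 1 / 5000 := by linarith [g.d2, g.c1]

/-- The line `|X a|²`. -/
theorem ln1 (g : GN M κ β c₀ η Cz δ ρ CP) {G X c s p r D rh : ℝ} (hG : 1 ≤ G) (hX : 0 ≤ X)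
    (cs : c ^ 2 + s ^ 2 = 1) (p0 : 0 ≤ p) (hr : r ≤ δ * (κ * G))
    (hD : D ≤ 2 * (s ^ 2 * p) + 2 * (X * c ^ 2 * r)) (D0 : 0 ≤ D) (h1 : rh ≤ 1) :
    ρ * G * X + 32 * η * (rh * D) ≤ CP * p + (X * c ^ 2 * (2 * β * κ * G) +
      X * s ^ 2 * (c₀ * κ * G)) := by
  have hη := g.η0; have hκ := g.κ0; have hβ := g.β0; have hc := g.c0
  have c2 : 0 ≤ c ^ 2 := sq_nonneg _
  have s2 : 0 ≤ s ^ 2 := sq_nonneg _
  have A0 : 0 ≤ X * c ^ 2 * (κ * G) := by positivity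
  have B0 : 0 ≤ X * s ^ 2 * G := by positivity
  have a1 : rh * D ≤ D := by nlinarith
  have a2 : s ^ 2 * p ≤ p := by nlinarith
  have a3 : X * c ^ 2 * r ≤ X * c ^ 2 * (δ * (κ * G)) :=
    mul_le_mul_of_nonneg_left hr (by positivity)
  have a4 : 32 * η * (rh * D) ≤ 32 * η * (2 * p + 2 * (X * c ^ 2 * (δ * (κ * G)))) :=
    mul_le_mul_of_nonneg_left (by linarith) (by positivity)
  have a5 : 64 * η * δ * (X * c ^ 2 * (κ * G)) ≤ β / 2 * (X * c ^ 2 * (κ * G)) :=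
    mul_le_mul_of_nonneg_right g.d3 A0
  have a6 : 64 * η * p ≤ CP * p := by
    refine mul_le_mul_of_nonneg_right ?_ p0
    have h2 := g.cP
    have h3 : 0 ≤ 7 / η := by positivity
    have h4 : 0 ≤ 43800 * Cz ^ 2 := by positivity
    linarith [g.η1]
  have a7 : ρ * (X * c ^ 2 * G) ≤ β * κ * (X * c ^ 2 * G) :=
    mul_le_mul_of_nonneg_right g.r1 (by positivity)
  have a8 : ρ * (X * s ^ 2 * G) ≤ c₀ * κ / 6 * (X * s ^ 2 * G) :=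
    mul_le_mul_of_nonneg_right g.r4 B0
  have a9 : ρ * G * X = ρ * (X * c ^ 2 * G) + ρ * (X * s ^ 2 * G) := by
    have : X = X * (c ^ 2 + s ^ 2) := by rw [cs, mul_one]
    calc ρ * G * X = ρ * G * (X * (c ^ 2 + s ^ 2)) := by rw [← this]
      _ = _ := by ring
  have b1 : 0 ≤ c₀ * κ * (X * s ^ 2 * G) := by positivity
  have b2 : 0 ≤ β * (X * c ^ 2 * (κ * G)) := by positivity
  linarith only [a4, a5, a6, a7, a8, a9, b1, b2]

/-- The line `|X b|²`. -/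
theorem ln2 (g : GN M κ β c₀ η Cz δ ρ CP) {G X c s p r D D' rh : ℝ} (hG : 1 ≤ G) (hX : 0 ≤ X)
    (cs : c ^ 2 + s ^ 2 = 1) (p0 : 0 ≤ p) (hr : r ≤ δ * (κ * G))
    (hD : D ≤ 2 * (c ^ 2 * p) + 2 * (X * s ^ 2 * r))
    (hD' : D' ≤ 2 * (s ^ 2 * p) + 2 * (X * c ^ 2 * r)) (D0 : 0 ≤ D') (h1 : rh ≤ 1) :
    ρ * G * X + (50 * D + 32 * η * (rh * D')) ≤ CP * p + (X * c ^ 2 * (G / 4) +
      X * s ^ 2 * (c₀ * κ * G)) := by
  have hη := g.η0; have hκ := g.κ0; have hc := g.c0; have δ0 := g.δ0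
  have c2 : 0 ≤ c ^ 2 := sq_nonneg _
  have s2 : 0 ≤ s ^ 2 := sq_nonneg _
  have A0 : 0 ≤ X * c ^ 2 * G := by positivity
  have B0 : 0 ≤ X * s ^ 2 * (κ * G) := by positivity
  have a1 : rh * D' ≤ D' := by nlinarith
  have a2 : s ^ 2 * p ≤ p := by nlinarith
  have a2' : c ^ 2 * p ≤ p := by nlinarith
  have a3 : X * c ^ 2 * r ≤ X * c ^ 2 * (δ * (κ * G)) :=
    mul_le_mul_of_nonneg_left hr (by positivity)
  have a3' : X * s ^ 2 * r ≤ X * s ^ 2 * (δ * (κ * G)) :=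
    mul_le_mul_of_nonneg_left hr (by positivity)
  have a4 : 32 * η * (rh * D') ≤ 32 * η * (2 * p + 2 * (X * c ^ 2 * (δ * (κ * G)))) :=
    mul_le_mul_of_nonneg_left (by linarith) (by positivity)
  have a4' : 50 * D ≤ 50 * (2 * p + 2 * (X * s ^ 2 * (δ * (κ * G)))) := by linarith
  have a5 : 64 * η * δ * κ * (X * c ^ 2 * G) ≤ 1 / 8 * (X * c ^ 2 * G) := by
    refine mul_le_mul_of_nonneg_right ?_ A0
    have h1 : 64 * η * δ ≤ 64 * (1 / 200) * (1 / 5000) :=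
      mul_le_mul (by linarith [g.η1]) g.δ1 δ0.le (by norm_num)
    have h2 : 64 * η * δ * κ ≤ 64 * (1 / 200) * (1 / 5000) * 1 :=
      mul_le_mul h1 g.κ1 hκ.le (by norm_num)
    linarith
  have a5' : 100 * δ * (X * s ^ 2 * (κ * G)) ≤ c₀ / 2 * (X * s ^ 2 * (κ * G)) :=
    mul_le_mul_of_nonneg_right (by linarith [g.d2]) B0
  have a6 : (64 * η + 100) * p ≤ CP * p := by
    refine mul_le_mul_of_nonneg_right ?_ p0
    have h2 := g.cP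
    have h3 : 0 ≤ 7 / η := by positivity
    have h4 : 0 ≤ 43800 * Cz ^ 2 := by positivity
    linarith [g.η1]
  have a7 : ρ * (X * c ^ 2 * G) ≤ 1 / 48 * (X * c ^ 2 * G) :=
    mul_le_mul_of_nonneg_right g.r5 A0
  have a8 : ρ * (X * s ^ 2 * G) ≤ c₀ * κ / 6 * (X * s ^ 2 * G) :=
    mul_le_mul_of_nonneg_right g.r4 (by positivity)
  have a9 : ρ * G * X = ρ * (X * c ^ 2 * G) + ρ * (X * s ^ 2 * G) := by
    have : X = X * (c ^ 2 + s ^ 2) := by rw [cs, mul_one]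
    calc ρ * G * X = ρ * G * (X * (c ^ 2 + s ^ 2)) := by rw [← this]
      _ = _ := by ring
  have b1 : 0 ≤ c₀ * (X * s ^ 2 * (κ * G)) := by positivity
  linarith only [a4, a4', a5, a5', a6, a7, a8, a9, b1, A0]

section l3

variable {G F w X c s p l om r lam gg gx D D' Γo L rh A B b : ℝ}

private lemma x1 (F0 : 0 ≤ F) (hX : 0 ≤ X) (cp : c ^ 2 * p ≤ p) (Fp : F * p ≤ om * F)
    (hr : r ≤ δ * (κ * G)) (hD : D ≤ 2 * (c ^ 2 * p) + 2 * (X * s ^ 2 * r))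
    (hB : B = X * s ^ 2 * (κ * G * F)) (B0 : 0 ≤ B) (d1 : 43800 * Cz ^ 2 * δ ≤ c₀ / 12) :
    21900 * Cz ^ 2 * (F * D) ≤ 43800 * Cz ^ 2 * (om * F) + c₀ / 12 * B := by
  have e1 : F * D ≤ 2 * (F * p) + 2 * (δ * B) := by
    have h2 := mul_le_mul_of_nonneg_left hD F0
    have h3 : F * (c ^ 2 * p) ≤ F * p := mul_le_mul_of_nonneg_left cp F0
    have h4 : X * s ^ 2 * F * r ≤ X * s ^ 2 * F * (δ * (κ * G)) :=
      mul_le_mul_of_nonneg_left hr (by positivity)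
    rw [hB]
    linarith only [h2, h3, h4]
  have h2 := mul_le_mul_of_nonneg_left e1 (by positivity : 0 ≤ 21900 * Cz ^ 2)
  have h3 := mul_le_mul_of_nonneg_right d1 B0
  have h4 := mul_le_mul_of_nonneg_left Fp (by positivity : 0 ≤ 43800 * Cz ^ 2)
  linarith only [h2, h3, h4]

private lemma x2 (kG : 0 ≤ κ * G) (hX : 0 ≤ X) (cp : c ^ 2 * p ≤ p)
    (oGk : κ * G * p ≤ om * G)
    (hr : r ≤ δ * (κ * G)) (hD : D ≤ 2 * (c ^ 2 * p) + 2 * (X * s ^ 2 * r))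
    (hb : b = X * s ^ 2 * (κ * G) ^ 2) :
    κ * G * D ≤ 2 * (om * G) + 2 * (δ * b) := by
  have h2 := mul_le_mul_of_nonneg_left hD kG
  have h3 : κ * G * (c ^ 2 * p) ≤ κ * G * p := mul_le_mul_of_nonneg_left cp kG
  have h4 : X * s ^ 2 * (κ * G) * r ≤ X * s ^ 2 * (κ * G) * (δ * (κ * G)) :=
    mul_le_mul_of_nonneg_left hr (by positivity)
  rw [hb]
  linarith only [h2, h3, h4, oGk]

private lemma x3 (hd : δ ≤ 1 / 5000) (δ0 : 0 < δ) (hX : 0 ≤ X) (cs : c ^ 2 + s ^ 2 = 1)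
    (p0 : 0 ≤ p) (hl : l ^ 2 ≤ om) (oG : om ≤ om * G) (kG : 0 ≤ κ * G)
    (oGk : κ * G * p ≤ om * G) (hr : r ≤ δ * (κ * G)) (hlam : |lam| ≤ δ * (κ * G))
    (hgg : |gg| ≤ 21 / 20 * r) (hgx : gx ^ 2 ≤ 21 / 20 * (21 / 20) * (p * r))
    (hL : L ≤ 4 * (c ^ 2 * l ^ 2 + X * s ^ 2 * lam ^ 2 + X * c ^ 2 * gg ^ 2 +
      4 * (s ^ 2 * gx ^ 2)))
    (hA : A = X * c ^ 2 * (κ * G) ^ 2) (A0 : 0 ≤ A)
    (hb : b = X * s ^ 2 * (κ * G) ^ 2) :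
    L ≤ 24 * (om * G) + 4 * (δ ^ 2 * b) + 5 * (δ ^ 2 * A) := by
  have lam2 : lam ^ 2 ≤ (δ * (κ * G)) ^ 2 := by
    rw [← sq_abs lam]; exact pow_le_pow_left₀ (abs_nonneg _) hlam 2
  have gg2 : gg ^ 2 ≤ (21 / 20 * (δ * (κ * G))) ^ 2 := by
    rw [← sq_abs gg]; exact pow_le_pow_left₀ (abs_nonneg _) (by linarith only [hgg, hr]) 2
  have c2 : c ^ 2 ≤ 1 := by nlinarith only [cs, sq_nonneg s]
  have s2 : s ^ 2 ≤ 1 := by nlinarith only [cs, sq_nonneg c]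
  have h2 : c ^ 2 * l ^ 2 ≤ 1 * l ^ 2 := mul_le_mul_of_nonneg_right c2 (sq_nonneg _)
  have h3 : X * s ^ 2 * lam ^ 2 ≤ X * s ^ 2 * (δ * (κ * G)) ^ 2 :=
    mul_le_mul_of_nonneg_left lam2 (by positivity)
  have h4 : X * c ^ 2 * gg ^ 2 ≤ X * c ^ 2 * (21 / 20 * (δ * (κ * G))) ^ 2 :=
    mul_le_mul_of_nonneg_left gg2 (by positivity)
  have h5 : s ^ 2 * gx ^ 2 ≤ 1 * gx ^ 2 := mul_le_mul_of_nonneg_right s2 (sq_nonneg _)
  have h6 : p * r ≤ 1 / 1000 * (om * G) := by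
    have h7 : p * r ≤ p * (δ * (κ * G)) := mul_le_mul_of_nonneg_left hr p0
    have h8 : δ * (κ * G * p) ≤ 1 / 5000 * (om * G) :=
      mul_le_mul hd oGk (by positivity) (by norm_num)
    have h9 : 0 ≤ κ * G * p := by positivity
    linarith only [h7, h8, h9, oGk]
  have h9 : 0 ≤ δ ^ 2 * A := by positivity
  have h10 : X * c ^ 2 * (21 / 20 * (δ * (κ * G))) ^ 2 = 441 / 400 * (δ ^ 2 * A) := by
    rw [hA]; ring
  have h11 : X * s ^ 2 * (δ * (κ * G)) ^ 2 = δ ^ 2 * b := by rw [hb]; ring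
  have h12 : 0 ≤ κ * G * p := by positivity
  linarith only [hL, h2, h3, h4, h5, h6, h9, h10, h11, h12, hgx, hl, oG, oGk]

private lemma x4 (hη : 0 < η) (hc₀ : 0 < c₀) (c1 : c₀ ≤ 1) (kG : 0 ≤ κ * G) (hX : 0 ≤ X)
    (p0 : 0 ≤ p) (sp : s ^ 2 * p ≤ p) (oGk : κ * G * p ≤ om * G) (hr : r ≤ δ * (κ * G))
    (hD' : D' ≤ 2 * (s ^ 2 * p) + 2 * (X * c ^ 2 * r)) (hΓ : Γo ≤ 21 / 20 * D')
    (hA : A = X * c ^ 2 * (κ * G) ^ 2) :
    3 / η * (c₀ * κ * G * Γo) ≤ 7 / η * (om * G) + 63 / 10 * (c₀ * δ / η) * A := by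
  have h2 : Γo ≤ 21 / 20 * (2 * p + 2 * (X * c ^ 2 * (δ * (κ * G)))) := by
    have := mul_le_mul_of_nonneg_left hr (by positivity : 0 ≤ X * c ^ 2)
    linarith only [this, hD', hΓ, sp]
  have h0 : 0 ≤ 3 / η * (c₀ * (κ * G)) := by positivity
  have h3 := mul_le_mul_of_nonneg_left h2 h0
  have h4 : c₀ * (κ * G * p) ≤ 1 * (om * G) := mul_le_mul c1 oGk (by positivity) zero_le_one
  have h5 := mul_le_mul_of_nonneg_left h4 (by positivity : 0 ≤ 63 / 10 / η)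
  have h6 : 3 / η * (c₀ * (κ * G)) * (21 / 20 * (2 * p + 2 * (X * c ^ 2 * (δ * (κ * G))))) =
      63 / 10 / η * (c₀ * (κ * G * p)) + 63 / 10 * (c₀ * δ / η) * A := by
    rw [hA]; field_simp; ring
  have h12 : 0 ≤ κ * G * p := by positivity
  have h7 : 63 / 10 / η * (om * G) ≤ 7 / η * (om * G) := by
    refine mul_le_mul_of_nonneg_right ?_ (h12.trans oGk)
    exact div_le_div_of_nonneg_right (by norm_num) hη.le
  rw [h6] at h3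
  have h8 : 3 / η * (c₀ * κ * G * Γo) = 3 / η * (c₀ * (κ * G)) * Γo := by ring
  rw [h8]
  linarith only [h3, h5, h7]

private lemma x5 (hη : 0 < η) (hη1 : η ≤ 1 / 200) (hδ : 0 ≤ δ) (kG : 0 ≤ κ * G) (hX : 0 ≤ X)
    (F0 : 0 ≤ F) (F2 : 19 / 20 * w ^ 2 ≤ F) (p0 : 0 ≤ p) (sp : s ^ 2 * p ≤ p)
    (Fp : F * p ≤ om * F) (hr : r ≤ δ * (κ * G))
    (hcw : X * c ^ 2 * w ^ 2 ≤ X * c ^ 2 * (2 * M * κ * G))
    (hD' : D' ≤ 2 * (s ^ 2 * p) + 2 * (X * c ^ 2 * r)) (D0 : 0 ≤ D') (h1 : rh ≤ 1)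
    (hA : A = X * c ^ 2 * (κ * G) ^ 2) :
    144 * η * (rh * D' * w ^ 2) ≤ 2 * (om * F) + 576 * (η * (M * δ)) * A := by
  have w2 : 0 ≤ w ^ 2 := sq_nonneg _
  have h2 : rh * D' ≤ 1 * D' := mul_le_mul_of_nonneg_right h1 D0
  have h3 : rh * D' * w ^ 2 ≤ (2 * (s ^ 2 * p) + 2 * (X * c ^ 2 * r)) * w ^ 2 :=
    mul_le_mul_of_nonneg_right (h2.trans (by linarith only [hD'])) w2
  have h4 : s ^ 2 * p * w ^ 2 ≤ p * w ^ 2 := mul_le_mul_of_nonneg_right sp w2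
  have h5 : p * w ^ 2 ≤ p * (20 / 19 * F) := mul_le_mul_of_nonneg_left (by linarith only [F2]) p0
  have h6 : r * (X * c ^ 2 * w ^ 2) ≤ (δ * (κ * G)) * (X * c ^ 2 * (2 * M * κ * G)) :=
    mul_le_mul hr hcw (by positivity) (by positivity)
  have h7 : (δ * (κ * G)) * (X * c ^ 2 * (2 * M * κ * G)) = 2 * (M * δ) * A := by
    rw [hA]; ring
  have h8 : rh * D' * w ^ 2 ≤ 40 / 19 * (F * p) + 4 * (M * δ) * A := by
    linarith only [h3, h4, h5, h6, h7]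
  have h9 := mul_le_mul_of_nonneg_left h8 (by positivity : 0 ≤ 144 * η)
  have h10 : 144 * η * (40 / 19 * (F * p)) ≤ 2 * (om * F) := by
    have h11 : 144 * η * (40 / 19) ≤ 2 := by linarith only [hη1]
    have h12 := mul_le_mul_of_nonneg_right h11 (by positivity : 0 ≤ F * p)
    linarith only [h12, Fp]
  linarith only [h9, h10]

private lemma y1 (hκ : 0 < κ) (hG : 1 ≤ G) (hX : 0 ≤ X) (F1 : F ≤ 21 / 20 * w ^ 2)
    (hcw : X * c ^ 2 * w ^ 2 ≤ X * c ^ 2 * (2 * M * κ * G))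
    (hA : A = X * c ^ 2 * (κ * G) ^ 2) :
    X * c ^ 2 * (G * (G + F)) ≤ A * (1 / κ ^ 2 + 21 / 10 * (M / κ)) := by
  have h4 : X * c ^ 2 * F ≤ X * c ^ 2 * (21 / 10 * M * κ * G) := by
    have := mul_le_mul_of_nonneg_left F1 (by positivity : 0 ≤ X * c ^ 2)
    linarith only [this, hcw]
  have h5 : A * (1 / κ ^ 2 + 21 / 10 * (M / κ)) =
      X * c ^ 2 * G ^ 2 + G * (X * c ^ 2 * (21 / 10 * M * κ * G)) := by
    rw [hA]; field_simp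
  have h6 := mul_le_mul_of_nonneg_left h4 (by linarith only [hG] : 0 ≤ G)
  rw [h5]
  linarith only [h6]

private lemma y2 (hκ : 0 < κ) (hb : b = X * s ^ 2 * (κ * G) ^ 2)
    (hB : B = X * s ^ 2 * (κ * G * F)) (hbB' : b ≤ 20 / 19 * B) :
    X * s ^ 2 * (G * (G + F)) ≤ B * (20 / 19 * (1 / κ ^ 2) + 1 / κ) := by
  have h8 : X * s ^ 2 * G ^ 2 = b * (1 / κ ^ 2) := by rw [hb]; field_simp
  have h9 : X * s ^ 2 * (G * F) = B * (1 / κ) := by rw [hB]; field_simp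
  have h10 : b * (1 / κ ^ 2) ≤ 20 / 19 * B * (1 / κ ^ 2) :=
    mul_le_mul_of_nonneg_right hbB' (by positivity)
  linarith only [h8, h9, h10]

private lemma y3 {P Q u v : ℝ} (ρ0 : 0 ≤ ρ) (A0 : 0 ≤ A) (B0 : 0 ≤ B) (h3 : P ≤ A * u)
    (h7 : Q ≤ B * v) (r2 : ρ * u ≤ 1) (r3 : ρ * v ≤ c₀ / 24) :
    ρ * P + ρ * Q ≤ A + c₀ / 24 * B := by
  have h11 := mul_le_mul_of_nonneg_left h3 ρ0
  have h12 := mul_le_mul_of_nonneg_left h7 ρ0
  have h13 := mul_le_mul_of_nonneg_right r2 A0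
  have h14 := mul_le_mul_of_nonneg_right r3 B0
  linarith only [h11, h12, h13, h14]

private lemma fin3 {P Q₁ Q₂ Q₃ Q₄ Q₅ e : ℝ} (δ0 : 0 < δ) (hd : δ ≤ 1 / 5000) (c0 : 0 < c₀)
    (d2 : 5000 * δ ≤ c₀) (hη : 0 < η) (d4 : 20 * (c₀ * δ) ≤ η) (d5 : 1200 * (η * (M * δ)) ≤ 1)
    (A0 : 0 ≤ A) (B0 : 0 ≤ B) (b0 : 0 ≤ b) (hbB' : b ≤ 20 / 19 * B)
    (q1 : 0 ≤ om * G) (q2 : 0 ≤ om * F) (he : 0 ≤ e)
    (m1 : P ≤ A + c₀ / 24 * B) (e1 : Q₁ ≤ e * (om * F) + c₀ / 12 * B)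
    (e2 : Q₂ ≤ 2 * (om * G) + 2 * (δ * b))
    (e3 : Q₃ ≤ 24 * (om * G) + 4 * (δ ^ 2 * b) + 5 * (δ ^ 2 * A))
    (e4 : Q₄ ≤ 7 / η * (om * G) + 63 / 10 * (c₀ * δ / η) * A)
    (e5 : Q₅ ≤ 2 * (om * F) + 576 * (η * (M * δ)) * A)
    (cP : e + 1000 + 7 / η ≤ CP) :
    P + ((Q₁ + Q₂ + Q₃) + (Q₄ + Q₅)) ≤ CP * (om * (G + F)) + (4 * A + c₀ / 3 * B) := by
  have n3 : (2 * δ + 4 * δ ^ 2) * b ≤ c₀ / 12 * B := by
    have h1 : δ ^ 2 ≤ 1 / 5000 * δ := by rw [sq]; exact mul_le_mul_of_nonneg_right hd δ0.le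
    have h2 : 2 * δ + 4 * δ ^ 2 ≤ c₀ / 400 := by linarith only [h1, d2, δ0]
    have h3 := mul_le_mul_of_nonneg_right h2 b0
    have h4 := mul_le_mul_of_nonneg_left hbB' (by positivity : 0 ≤ c₀ / 400)
    have h5 : 0 ≤ c₀ * B := by positivity
    linarith only [h3, h4, h5]
  have n4 : 63 / 10 * (c₀ * δ / η) * A ≤ 1 / 2 * A := by
    refine mul_le_mul_of_nonneg_right ?_ A0
    have : c₀ * δ / η ≤ 1 / 20 := by rw [div_le_iff₀ hη]; linarith only [d4]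
    linarith only [this]
  have n5 : 576 * (η * (M * δ)) * A ≤ 1 / 2 * A :=
    mul_le_mul_of_nonneg_right (by linarith only [d5]) A0
  have n6 : 5 * (δ ^ 2 * A) ≤ 1 / 2 * A := by
    have h2 : δ ^ 2 ≤ 1 / 5000 * (1 / 5000) := by
      rw [sq]; exact mul_le_mul hd hd δ0.le (by norm_num)
    have h3 := mul_le_mul_of_nonneg_right h2 A0
    linarith only [h3, A0]
  have q0 : 0 ≤ om * (G + F) := by linarith only [q1, q2]
  have cp1 := mul_le_mul_of_nonneg_right cP q0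
  have q3 : 0 ≤ e * (om * G) := mul_nonneg he q1
  have q4 : 0 ≤ 7 / η * (om * F) := mul_nonneg (by positivity) q2
  have q5 : (e + 1000 + 7 / η) * (om * (G + F)) = e * (om * G) +
    e * (om * F) + 1000 * (om * G) + 1000 * (om * F) + 7 / η * (om * G) +
    7 / η * (om * F) := by ring
  rw [q5] at cp1
  have q6 : 0 ≤ c₀ * B := by positivity
  linarith only [e1, e2, e3, e4, e5, m1, n3, n4, n5, n6, cp1, q1, q2, q3, q4, q6, A0]

/-- The line `a²`. -/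
theorem ln3 (g : GN M κ β c₀ η Cz δ ρ CP) (hG : 1 ≤ G) (hX : 0 ≤ X)
    (cs : c ^ 2 + s ^ 2 = 1) (p0 : 0 ≤ p) (hp : p ≤ om) (hl : l ^ 2 ≤ om)
    (hr : r ≤ δ * (κ * G)) (hlam : |lam| ≤ δ * (κ * G))
    (F1 : F ≤ 21 / 20 * w ^ 2) (F2 : 19 / 20 * w ^ 2 ≤ F)
    (hs : s ≠ 0 → M * κ * G ≤ w ^ 2) (hc : c ≠ 0 → w ^ 2 ≤ 2 * M * κ * G)
    (hgg : |gg| ≤ 21 / 20 * r) (hgx : gx ^ 2 ≤ 21 / 20 * (21 / 20) * (p * r))
    (hD : D ≤ 2 * (c ^ 2 * p) + 2 * (X * s ^ 2 * r))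
    (hD' : D' ≤ 2 * (s ^ 2 * p) + 2 * (X * c ^ 2 * r)) (D0 : 0 ≤ D')
    (hΓ : Γo ≤ 21 / 20 * D')
    (hL : L ≤ 4 * (c ^ 2 * l ^ 2 + X * s ^ 2 * lam ^ 2 + X * c ^ 2 * gg ^ 2 +
      4 * (s ^ 2 * gx ^ 2))) (h1 : rh ≤ 1) :
    ρ * (G * (G + F)) * X + ((21900 * Cz ^ 2 * (F * D) + κ * G * D + L) +
      (3 / η * (c₀ * κ * G * Γo) + 144 * η * (rh * D' * w ^ 2))) ≤
      CP * (om * (G + F)) + (X * c ^ 2 * (4 * κ ^ 2 * G ^ 2) +
      X * s ^ 2 * (1 / 3 * (c₀ * κ * G * F))) := by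
  have hη := g.η0; have hκ := g.κ0; have hc₀ := g.c0; have δ0 := g.δ0; have M1 := g.M1
  have w2 : 0 ≤ w ^ 2 := sq_nonneg _
  have kG : 0 < κ * G := by positivity
  have F0 : 0 ≤ F := by linarith only [F2, w2]
  obtain ⟨A, hA⟩ : ∃ A, A = X * c ^ 2 * (κ * G) ^ 2 := ⟨_, rfl⟩
  obtain ⟨B, hB⟩ : ∃ B, B = X * s ^ 2 * (κ * G * F) := ⟨_, rfl⟩
  obtain ⟨b, hb⟩ : ∃ b, b = X * s ^ 2 * (κ * G) ^ 2 := ⟨_, rfl⟩
  have A0 : 0 ≤ A := by rw [hA]; positivity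
  have B0 : 0 ≤ B := by rw [hB]; positivity
  have b0 : 0 ≤ b := by rw [hb]; positivity
  have hbB : 19 / 20 * M * b ≤ B := by
    by_cases h : s = 0
    · rw [hb, hB, h]; norm_num
    · have h2 := hs h
      have h3 : 19 / 20 * (M * κ * G) ≤ F := by linarith only [h2, F2]
      have h4 := mul_le_mul_of_nonneg_left h3 (by positivity : 0 ≤ X * s ^ 2 * (κ * G))
      rw [hb, hB]
      linarith only [h4]
  have hbB' : b ≤ 20 / 19 * B := by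
    have : 1 * b ≤ M * b := mul_le_mul_of_nonneg_right M1 b0
    linarith only [this, hbB]
  have hcw : X * c ^ 2 * w ^ 2 ≤ X * c ^ 2 * (2 * M * κ * G) := by
    by_cases h : c = 0
    · rw [h]; norm_num
    · exact mul_le_mul_of_nonneg_left (hc h) (by positivity)
  have c2' : c ^ 2 ≤ 1 := by nlinarith only [cs, sq_nonneg s]
  have s2' : s ^ 2 ≤ 1 := by nlinarith only [cs, sq_nonneg c]
  have cp : c ^ 2 * p ≤ p := by
    have := mul_le_mul_of_nonneg_right c2' p0; linarith only [this]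
  have sp : s ^ 2 * p ≤ p := by
    have := mul_le_mul_of_nonneg_right s2' p0; linarith only [this]
  have o0 : 0 ≤ om := p0.trans hp
  have oG : om ≤ om * G := le_mul_of_one_le_right o0 hG
  have oGk : κ * G * p ≤ om * G := by
    have h1 : κ * G * p ≤ 1 * G * p := by
      refine mul_le_mul_of_nonneg_right ?_ p0
      exact mul_le_mul_of_nonneg_right g.κ1 (by linarith only [hG])
    have h2 : G * p ≤ G * om := mul_le_mul_of_nonneg_left hp (by linarith only [hG])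
    linarith only [h1, h2]
  have Fp : F * p ≤ om * F := by
    have := mul_le_mul_of_nonneg_left hp F0
    linarith only [this]
  have e1 := x1 (Cz := Cz) F0 hX cp Fp hr hD hB B0 g.d1
  have e2 := x2 kG.le hX cp oGk hr hD hb
  have e3 := x3 g.δ1 δ0 hX cs p0 hl oG kG.le oGk hr hlam hgg hgx hL hA A0 hb
  have e4 := x4 hη hc₀ g.c1 kG.le hX p0 sp oGk hr hD' hΓ hA
  have e5 := x5 hη g.η1 δ0.le kG.le hX F0 F2 p0 sp Fp hr hcw hD' D0 h1 hA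
  have m1 := y3 g.ρ0.le A0 B0 (y1 hκ hG hX F1 hcw hA) (y2 hκ hb hB hbB') g.r2 g.r3
  have h15 : ρ * (G * (G + F)) * X = ρ * (X * c ^ 2 * (G * (G + F))) +
      ρ * (X * s ^ 2 * (G * (G + F))) := by
    calc ρ * (G * (G + F)) * X = ρ * (G * (G + F)) * (X * (c ^ 2 + s ^ 2)) := by rw [cs, mul_one]
      _ = _ := by ring
  have n1 : X * c ^ 2 * (4 * κ ^ 2 * G ^ 2) = 4 * A := by rw [hA]; ring
  have n2 : X * s ^ 2 * (1 / 3 * (c₀ * κ * G * F)) = c₀ / 3 * B := by rw [hB]; ring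
  rw [h15, n1, n2]
  exact fin3 δ0 g.δ1 hc₀ g.d2 hη g.d4 g.d5 A0 B0 b0 hbB' (by positivity) (by positivity)
    (by positivity) m1 e1 e2 e3 e4 e5 g.cP

end l3

section l4

variable {G F w X c s p r D D' Γo rh A B : ℝ}

private lemma w1 (F0 : 0 ≤ F) (hX : 0 ≤ X) (cp : c ^ 2 * p ≤ p)
    (hr : r ≤ δ * (κ * G)) (hD : D ≤ 2 * (c ^ 2 * p) + 2 * (X * s ^ 2 * r))
    (hB : B = X * s ^ 2 * (κ * G * F)) :
    310 * (F * D) ≤ 620 * (p * F) + 620 * (δ * B) := by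
  have h2 := mul_le_mul_of_nonneg_left hD F0
  have h3 : F * (c ^ 2 * p) ≤ F * p := mul_le_mul_of_nonneg_left cp F0
  have h4 : X * s ^ 2 * F * r ≤ X * s ^ 2 * F * (δ * (κ * G)) :=
    mul_le_mul_of_nonneg_left hr (by positivity)
  rw [hB]
  linarith only [h2, h3, h4]

private lemma w2 (g : GN M κ β c₀ η Cz δ ρ CP) (G0 : 0 ≤ G) (hX : 0 ≤ X) (p0 : 0 ≤ p)
    (F0 : 0 ≤ F) (GF : G ≤ F) (GGF : G ^ 2 ≤ 1 / 57 * (G * F))
    (hD2 : D' ≤ 2 * p + 2 * (X * c ^ 2 * (δ * (κ * G)))) (hΓ : Γo ≤ 21 / 20 * D')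
    (hA : A = X * c ^ 2 * (G * F)) (A0 : 0 ≤ A) :
    3 / η * (c₀ * κ * G * Γo) ≤ 7 / η * (p * F) + 1 / 100 * A := by
  have hη := g.η0; have hκ := g.κ0; have hc₀ := g.c0; have δ0 := g.δ0
  have h3 := mul_le_mul_of_nonneg_left (hΓ.trans (mul_le_mul_of_nonneg_left hD2
    (by norm_num))) (by positivity : 0 ≤ 3 / η * (c₀ * κ * G))
  have h4 : c₀ * (κ * (G * p)) ≤ 1 * (1 * (F * p)) := by
    refine mul_le_mul g.c1 (mul_le_mul g.κ1 (mul_le_mul_of_nonneg_right GF p0) (by positivity)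
      zero_le_one) (by positivity) zero_le_one
  have h5 := mul_le_mul_of_nonneg_left h4 (by positivity : 0 ≤ 63 / 10 / η)
  have h6 : 3 / η * (c₀ * κ * G) * (21 / 20 * (2 * p + 2 * (X * c ^ 2 * (δ * (κ * G))))) =
      63 / 10 / η * (c₀ * (κ * (G * p))) +
        63 / 10 * (c₀ * δ / η) * (κ ^ 2 * (X * c ^ 2 * G ^ 2)) := by
    field_simp; ring
  have h7 : 63 / 10 / η * (F * p) ≤ 7 / η * (F * p) := by
    refine mul_le_mul_of_nonneg_right ?_ (by positivity)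
    exact div_le_div_of_nonneg_right (by norm_num) hη.le
  have h8 : 3 / η * (c₀ * κ * G * Γo) = 3 / η * (c₀ * κ * G) * Γo := by ring
  have h9 : c₀ * δ / η ≤ 1 / 20 := by rw [div_le_iff₀ hη]; linarith only [g.d4]
  have k1 : κ ^ 2 ≤ 1 := pow_le_one₀ hκ.le g.κ1
  have h10 : X * c ^ 2 * G ^ 2 ≤ 1 / 57 * A := by
    have := mul_le_mul_of_nonneg_left GGF (by positivity : 0 ≤ X * c ^ 2)
    rw [hA]
    linarith only [this]
  have h12 : κ ^ 2 * (X * c ^ 2 * G ^ 2) ≤ 1 * (1 / 57 * A) :=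
    mul_le_mul k1 h10 (by positivity) zero_le_one
  have h13 : 63 / 10 * (c₀ * δ / η) * (κ ^ 2 * (X * c ^ 2 * G ^ 2)) ≤
      63 / 10 * (1 / 20) * (1 * (1 / 57 * A)) :=
    mul_le_mul (by linarith only [h9]) h12 (by positivity) (by norm_num)
  rw [h6] at h3
  rw [h8]
  linarith only [h3, h5, h7, h13, A0]

private lemma w3 (g : GN M κ β c₀ η Cz δ ρ CP) (G0 : 0 ≤ G) (hX : 0 ≤ X) (p0 : 0 ≤ p)
    (F0 : 0 ≤ F) (F2 : 19 / 20 * w ^ 2 ≤ F)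
    (hD2 : D' ≤ 2 * p + 2 * (X * c ^ 2 * (δ * (κ * G)))) (D0 : 0 ≤ D') (h1 : rh ≤ 1)
    (hA : A = X * c ^ 2 * (G * F)) (A0 : 0 ≤ A) :
    144 * η * (rh * D' * w ^ 2) ≤ 2 * (p * F) + 1 / 100 * A := by
  have hη := g.η0; have hκ := g.κ0; have hc₀ := g.c0; have δ0 := g.δ0
  have hd := g.δ1
  have w2 : 0 ≤ w ^ 2 := sq_nonneg _
  have h2 : rh * D' ≤ 1 * D' := mul_le_mul_of_nonneg_right h1 D0
  have h3 : rh * D' * w ^ 2 ≤ (2 * p + 2 * (X * c ^ 2 * (δ * (κ * G)))) * (20 / 19 * F) :=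
    mul_le_mul (h2.trans (by linarith only [hD2])) (by linarith only [F2]) w2 (by positivity)
  have h9 := mul_le_mul_of_nonneg_left h3 (by positivity : 0 ≤ 144 * η)
  have h10 : 144 * η * ((2 * p + 2 * (X * c ^ 2 * (δ * (κ * G)))) * (20 / 19 * F)) =
      5760 / 19 * η * (p * F) + 5760 / 19 * (η * δ * κ) * A := by rw [hA]; ring
  have h11 : 5760 / 19 * η * (p * F) ≤ 2 * (p * F) :=
    mul_le_mul_of_nonneg_right (by linarith only [g.η1]) (by positivity)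
  have h12 : 5760 / 19 * (η * δ * κ) * A ≤ 1 / 100 * A := by
    refine mul_le_mul_of_nonneg_right ?_ A0
    have h13 : η * δ ≤ 1 / 200 * (1 / 5000) := mul_le_mul g.η1 hd δ0.le (by norm_num)
    have h14 : η * δ * κ ≤ 1 / 200 * (1 / 5000) * 1 := mul_le_mul h13 g.κ1 hκ.le (by norm_num)
    linarith only [h14]
  rw [h10] at h9
  linarith only [h9, h11, h12]

/-- The line `b²`. -/
theorem ln4 (g : GN M κ β c₀ η Cz δ ρ CP) (hG : 60 ≤ G)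
    (hX : 0 ≤ X) (cs : c ^ 2 + s ^ 2 = 1) (p0 : 0 ≤ p) (hr : r ≤ δ * (κ * G))
    (F2 : 19 / 20 * w ^ 2 ≤ F) (Gw : G ≤ w)
    (hD : D ≤ 2 * (c ^ 2 * p) + 2 * (X * s ^ 2 * r))
    (hD' : D' ≤ 2 * (s ^ 2 * p) + 2 * (X * c ^ 2 * r)) (D0 : 0 ≤ D')
    (hΓ : Γo ≤ 21 / 20 * D') (h1 : rh ≤ 1) :
    ρ * (G * F) * X + (310 * (F * D) + (3 / η * (c₀ * κ * G * Γo) +
      144 * η * (rh * D' * w ^ 2))) ≤ CP * (p * F) + (X * c ^ 2 * (G * F / 24) +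
      X * s ^ 2 * (1 / 3 * (c₀ * κ * G * F))) := by
  have hη := g.η0; have hκ := g.κ0; have hc₀ := g.c0; have δ0 := g.δ0
  have G0 : 0 ≤ G := by linarith only [hG]
  have kG : 0 ≤ κ * G := by positivity
  have hG2 : 19 / 20 * G ^ 2 ≤ F := by
    have := pow_le_pow_left₀ G0 Gw 2
    linarith only [this, F2]
  have hGG : 60 * G ≤ G ^ 2 := by rw [sq]; exact mul_le_mul_of_nonneg_right hG G0
  have F0 : 0 ≤ F := by linarith only [hG2, hGG, G0]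
  have GF : G ≤ F := by linarith only [hG2, hGG, G0]
  have GGF : G ^ 2 ≤ 1 / 57 * (G * F) := by
    have h57 : 57 * G ≤ F := by linarith only [hG2, hGG]
    have := mul_le_mul_of_nonneg_left h57 G0
    linarith only [this]
  have c2' : c ^ 2 ≤ 1 := by nlinarith only [cs, sq_nonneg s]
  have s2' : s ^ 2 ≤ 1 := by nlinarith only [cs, sq_nonneg c]
  have cp : c ^ 2 * p ≤ p := by
    have := mul_le_mul_of_nonneg_right c2' p0; linarith only [this]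
  have sp : s ^ 2 * p ≤ p := by
    have := mul_le_mul_of_nonneg_right s2' p0; linarith only [this]
  obtain ⟨A, hA⟩ : ∃ A, A = X * c ^ 2 * (G * F) := ⟨_, rfl⟩
  obtain ⟨B, hB⟩ : ∃ B, B = X * s ^ 2 * (κ * G * F) := ⟨_, rfl⟩
  have A0 : 0 ≤ A := by rw [hA]; positivity
  have B0 : 0 ≤ B := by rw [hB]; positivity
  have hD2 : D' ≤ 2 * p + 2 * (X * c ^ 2 * (δ * (κ * G))) := by
    have := mul_le_mul_of_nonneg_left hr (by positivity : 0 ≤ X * c ^ 2)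
    linarith only [this, hD', sp]
  have e1 := w1 F0 hX cp hr hD hB
  have e2 := w2 g G0 hX p0 F0 GF GGF hD2 hΓ hA A0
  have e3 := w3 g G0 hX p0 F0 F2 hD2 D0 h1 hA A0
  have m1 : ρ * (G * F) * X ≤ 1 / 48 * A + c₀ / 6 * B := by
    have h3 := mul_le_mul_of_nonneg_right g.r5 A0
    have h4 := mul_le_mul_of_nonneg_right g.r4 (by positivity : 0 ≤ X * s ^ 2 * (G * F))
    have h5 : ρ * (G * F) * X = ρ * A + ρ * (X * s ^ 2 * (G * F)) := by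
      rw [hA]
      calc ρ * (G * F) * X = ρ * (G * F) * (X * (c ^ 2 + s ^ 2)) := by rw [cs, mul_one]
        _ = _ := by ring
    have h6 : c₀ * κ / 6 * (X * s ^ 2 * (G * F)) = c₀ / 6 * B := by rw [hB]; ring
    rw [h5]
    linarith only [h3, h4, h6]
  have n1 : X * c ^ 2 * (G * F / 24) = 1 / 24 * A := by rw [hA]; ring
  have n2 : X * s ^ 2 * (1 / 3 * (c₀ * κ * G * F)) = c₀ / 3 * B := by rw [hB]; ring
  have n3 : 620 * (δ * B) ≤ c₀ / 6 * B := by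
    have h2 : 620 * δ ≤ c₀ / 6 := by linarith only [g.d2, δ0]
    have := mul_le_mul_of_nonneg_right h2 B0
    linarith only [this]
  have n4 : (1000 + 7 / η) * (p * F) ≤ CP * (p * F) := by
    refine mul_le_mul_of_nonneg_right ?_ (by positivity)
    have h4 : 0 ≤ 43800 * Cz ^ 2 := by positivity
    linarith only [h4, g.cP]
  have n5 : 0 ≤ p * F := by positivity
  rw [n1, n2]
  linarith only [e1, e2, e3, m1, n3, n4, n5, A0, B0]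

end l4

end Vale.Agent.P088.R2.H660.G
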