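import Vale.Agent.P088.R2.H660.G.Hc

/-!
# P088, stage 3: the cut variable `|D_x W|² / (M κ G)`
-/

open MeasureTheory Set Filter
open scoped ContDiff Topology

noncomputable section

namespace Vale.Agent.P088.R2.H660.G

open Vale.Agent.P088.R2.H961.GW Vale.Agent.P088.R2.H644 Vale.Agent.P088.R2.H960.W
  Vale.Agent.P088.R2.H230.W Vale.Agent.P088.R2.H551.E Vale.Agent.P088.R2.H660.P

variable {E ι : Type*} [NormedAddCommGroup E] [NormedSpace ℝ E] [Fintype ι]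
variable {σ ζ : Sl E ι} {Ω : Set E} {θ θ' W G : E → ℝ} {z : E} {M κ C₁ C : ℝ}

/-- The cut variable. -/
def Tv (σ : Sl E ι) (W G : E → ℝ) (M κ : ℝ) (z : E) : ℝ := dD σ W z / (M * κ * G z)

theorem sTv (ok : σ.Ok Ω θ) (hW : Sm Ω W) (hG : Sm Ω G) (h0 : ∀ z ∈ Ω, 1 ≤ G z)
    (hM : 0 < M) (hκ : 0 < κ) : Sm Ω (Tv σ W G M κ) :=
  (sdD ok hW).div (contDiffOn_const.mul hG) fun z hz => by
    have := h0 z hz
    positivity

theorem Tv_eq (hM : 0 < M) (hκ : 0 < κ) (h0 : 1 ≤ G z) :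
    Tv σ W G M κ z * G z = 1 / (M * κ) * dD σ W z := by
  unfold Tv
  have : G z ≠ 0 := by linarith
  field_simp

/-- The bounds at a point. -/
structure TB (σ τ : Sl E ι) (W G : E → ℝ) (κ C₁ C : ℝ) (z : E) : Prop where
  w2 : ∀ i j, |σ.D i (σ.D j W) z| ≤ C₁ * κ * G z
  wyx : ∀ i j, |τ.D i (σ.D j W) z| ≤ C₁ * κ * G z
  w3 : ∀ i j k, |σ.D i (σ.D j (σ.D k W)) z| ≤ C * G z
  g1 : ∀ i, |σ.D i G z| ≤ C * G z
  g1' : ∀ i, |τ.D i G z| ≤ C * G z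
  g2 : ∀ i j, |σ.D i (σ.D j G) z| ≤ C * G z

/-- The derivative of `dD`. -/
theorem D_dD (ok : σ.Ok Ω θ) (hW : Sm Ω W) (ζ : Sl E ι) (j : ι) (hz : z ∈ Ω) :
    ζ.D j (dD σ W) z = ∑ k, 2 * (σ.D k W z * ζ.D j (σ.D k W) z) := by
  have hΩ := ok.op
  have e : dD σ W = fun z => ∑ k, σ.D k W z * σ.D k W z := by
    funext w; unfold dD; exact Finset.sum_congr rfl fun k _ => by ring
  rw [e, D_sum ζ hΩ _ (fun k _ => (ok.sD hW k).mul (ok.sD hW k)) j hz]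
  refine Finset.sum_congr rfl fun k _ => ?_
  rw [D_mul ζ hΩ (ok.sD hW k) (ok.sD hW k) j hz]; ring

theorem D_dD_le (ok : σ.Ok Ω θ) (hW : Sm Ω W) (ζ : Sl E ι) (hz : z ∈ Ω) {H : ℝ}
    (hH : ∀ i k, |ζ.D i (σ.D k W) z| ≤ H) (j : ι) :
    |ζ.D j (dD σ W) z| ≤ Fintype.card ι * (2 * (nn (gr σ W z) * H)) := by
  rw [D_dD ok hW ζ j hz]
  refine (Finset.abs_sum_le_sum_abs _ _).trans ?_
  calc ∑ k, |2 * (σ.D k W z * ζ.D j (σ.D k W) z)| ≤ ∑ _k : ι, 2 * (nn (gr σ W z) * H) := by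
        refine Finset.sum_le_sum fun k _ => ?_
        rw [abs_mul, abs_mul, abs_two]
        have h1 := mul_le_mul (abs_le_nn (gr σ W z) k) (hH j k) (abs_nonneg _) (nn_nonneg _)
        have h2 : gr σ W z k = σ.D k W z := rfl
        rw [h2] at h1
        linarith
    _ = _ := by rw [Finset.sum_const, Finset.card_univ, nsmul_eq_mul]

/-- The first derivatives of the cut variable. -/
theorem D_Tv (ok : σ.Ok Ω θ) (hW : Sm Ω W) (hG : Sm Ω G) (h0 : ∀ z ∈ Ω, 1 ≤ G z)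
    (hM : 0 < M) (hκ : 0 < κ) (ζ : Sl E ι) (hz : z ∈ Ω)
    (hH : ∀ i k, |ζ.D i (σ.D k W) z| ≤ C₁ * κ * G z) (g1 : ∀ i, |ζ.D i G z| ≤ C * G z)
    (hT : Tv σ W G M κ z ≤ 2) (j : ι) :
    |ζ.D j (Tv σ W G M κ) z| ≤
      2 * (Fintype.card ι * nn (gr σ W z) * C₁) / M + 2 * C := by
  have hΩ := ok.op
  have G0 : 0 < G z := by linarith [h0 z hz]
  have sT := sTv ok hW hG h0 hM hκ
  have T0 : 0 ≤ Tv σ W G M κ z := by
    unfold Tv
    have : 0 ≤ dD σ W z := Finset.sum_nonneg fun _ _ => sq_nonneg _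
    positivity
  have e1 : ζ.D j (fun z => Tv σ W G M κ z * G z) z =
      ζ.D j (fun z => 1 / (M * κ) * dD σ W z) z :=
    D_congr ζ hΩ (fun w hw => Tv_eq hM hκ (h0 w hw)) j hz
  rw [D_mul ζ hΩ sT hG j hz, D_cmul ζ hΩ _ (sdD ok hW) j hz] at e1
  have b1 := D_dD_le ok hW ζ hz hH j
  have e2 : ζ.D j (Tv σ W G M κ) z * G z =
      1 / (M * κ) * ζ.D j (dD σ W) z - Tv σ W G M κ z * ζ.D j G z := by linarith
  have e3 : |ζ.D j (Tv σ W G M κ) z| * G z ≤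
      (2 * (Fintype.card ι * nn (gr σ W z) * C₁) / M + 2 * C) * G z := by
    have a1 : |ζ.D j (Tv σ W G M κ) z| * G z = |ζ.D j (Tv σ W G M κ) z * G z| := by
      rw [abs_mul, abs_of_pos G0]
    rw [a1, e2]
    refine (abs_sub _ _).trans ?_
    rw [abs_mul, abs_mul, abs_of_pos (by positivity : 0 < 1 / (M * κ)), abs_of_nonneg T0]
    have a2 := mul_le_mul_of_nonneg_left b1 (by positivity : 0 ≤ 1 / (M * κ))
    have a3 : Tv σ W G M κ z * |ζ.D j G z| ≤ 2 * (C * G z) :=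
      mul_le_mul hT (g1 j) (abs_nonneg _) (by norm_num)
    have a4 : 1 / (M * κ) * (Fintype.card ι * (2 * (nn (gr σ W z) * (C₁ * κ * G z)))) =
        2 * (Fintype.card ι * nn (gr σ W z) * C₁) / M * G z := by
      field_simp
    linarith
  exact le_of_mul_le_mul_right e3 G0

/-- The second derivatives of the cut variable. -/
theorem DD_Tv {τ : Sl E ι} (ok : σ.Ok Ω θ) (hW : Sm Ω W) (hG : Sm Ω G)
    (h0 : ∀ z ∈ Ω, 1 ≤ G z)
    (hM : 0 < M) (hκ : 0 < κ) (hC₁ : 0 ≤ C₁) (hz : z ∈ Ω)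
    (tb : TB σ τ W G κ C₁ C z) (hT : Tv σ W G M κ z ≤ 2) {d : ℝ}
    (hd : ∀ j, |σ.D j (Tv σ W G M κ) z| ≤ d) (i j : ι) :
    |σ.D i (σ.D j (Tv σ W G M κ)) z| ≤
      2 * Fintype.card ι * (C₁ ^ 2 * κ * G z / M + nn (gr σ W z) * C / (M * κ)) +
        2 * C * d + 2 * C := by
  have hΩ := ok.op
  have G0 : 0 < G z := by linarith [h0 z hz]
  have sT := sTv ok hW hG h0 hM hκ
  have T0 : 0 ≤ Tv σ W G M κ z := by
    unfold Tv
    have : 0 ≤ dD σ W z := Finset.sum_nonneg fun _ _ => sq_nonneg _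
    positivity
  have w0 := nn_nonneg (gr σ W z)
  -- the second derivative of `dD`
  have b1 : |σ.D i (σ.D j (dD σ W)) z| ≤ Fintype.card ι * (2 * ((C₁ * κ * G z) * (C₁ * κ * G z) +
      nn (gr σ W z) * (C * G z))) := by
    have e1 : σ.D i (σ.D j (dD σ W)) z = ∑ k, 2 * (σ.D i (σ.D k W) z * σ.D j (σ.D k W) z +
        σ.D k W z * σ.D i (σ.D j (σ.D k W)) z) := by
      have sk : ∀ k, Sm Ω fun z => σ.D k W z * σ.D j (σ.D k W) z := fun k =>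
        (ok.sD hW k).mul (ok.sD (ok.sD hW k) j)
      rw [D_congr σ hΩ (fun w hw => D_dD ok hW σ j hw) i hz,
        D_sum σ hΩ _ (fun k _ => contDiffOn_const.mul (sk k)) i hz]
      refine Finset.sum_congr rfl fun k _ => ?_
      rw [D_cmul σ hΩ 2 (sk k) i hz, D_mul σ hΩ (ok.sD hW k) (ok.sD (ok.sD hW k) j) i hz]
    rw [e1]
    refine (Finset.abs_sum_le_sum_abs _ _).trans ?_
    calc ∑ k, |2 * (σ.D i (σ.D k W) z * σ.D j (σ.D k W) z +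
          σ.D k W z * σ.D i (σ.D j (σ.D k W)) z)| ≤ ∑ _k : ι, 2 * ((C₁ * κ * G z) *
          (C₁ * κ * G z) + nn (gr σ W z) * (C * G z)) := by
          refine Finset.sum_le_sum fun k _ => ?_
          rw [abs_mul, abs_two]
          have a0 := abs_add_le (σ.D i (σ.D k W) z * σ.D j (σ.D k W) z)
            (σ.D k W z * σ.D i (σ.D j (σ.D k W)) z)
          rw [abs_mul, abs_mul (σ.D k W z)] at a0
          have a1 := mul_le_mul (tb.w2 i k) (tb.w2 j k) (abs_nonneg _) (by positivity)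
          have a2 := mul_le_mul (abs_le_nn (gr σ W z) k) (tb.w3 i j k) (abs_nonneg _) w0
          have a3 : gr σ W z k = σ.D k W z := rfl
          rw [a3] at a2
          linarith
      _ = _ := by rw [Finset.sum_const, Finset.card_univ, nsmul_eq_mul]
  have e1 : ∀ w ∈ Ω, σ.D j (Tv σ W G M κ) w * G w + Tv σ W G M κ w * σ.D j G w =
      1 / (M * κ) * σ.D j (dD σ W) w := by
    intro w hw
    have e1 : σ.D j (fun z => Tv σ W G M κ z * G z) w =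
        σ.D j (fun z => 1 / (M * κ) * dD σ W z) w :=
      D_congr σ hΩ (fun w hw => Tv_eq hM hκ (h0 w hw)) j hw
    rw [D_mul σ hΩ sT hG j hw, D_cmul σ hΩ _ (sdD ok hW) j hw] at e1
    exact e1
  have e2 := D_congr σ hΩ e1 i hz
  rw [D_add σ hΩ ((ok.sD sT j).mul hG) (sT.mul (ok.sD hG j)) i hz,
    D_mul σ hΩ (ok.sD sT j) hG i hz, D_mul σ hΩ sT (ok.sD hG j) i hz,
    D_cmul σ hΩ _ (ok.sD (sdD ok hW) j) i hz] at e2
  have d0 : 0 ≤ d := (abs_nonneg _).trans (hd j)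
  have e3 : |σ.D i (σ.D j (Tv σ W G M κ)) z| * G z ≤
      (2 * Fintype.card ι * (C₁ ^ 2 * κ * G z / M + nn (gr σ W z) * C / (M * κ)) +
        2 * C * d + 2 * C) * G z := by
    have a1 : |σ.D i (σ.D j (Tv σ W G M κ)) z| * G z =
        |σ.D i (σ.D j (Tv σ W G M κ)) z * G z| := by rw [abs_mul, abs_of_pos G0]
    have a2 : σ.D i (σ.D j (Tv σ W G M κ)) z * G z = 1 / (M * κ) * σ.D i (σ.D j (dD σ W)) z -
        (σ.D j (Tv σ W G M κ) z * σ.D i G z + σ.D i (Tv σ W G M κ) z * σ.D j G z +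
          Tv σ W G M κ z * σ.D i (σ.D j G) z) := by linarith
    rw [a1, a2]
    refine (abs_sub _ _).trans ?_
    have a3 := abs_add_le (σ.D j (Tv σ W G M κ) z * σ.D i G z +
      σ.D i (Tv σ W G M κ) z * σ.D j G z) (Tv σ W G M κ z * σ.D i (σ.D j G) z)
    have a4 := abs_add_le (σ.D j (Tv σ W G M κ) z * σ.D i G z)
      (σ.D i (Tv σ W G M κ) z * σ.D j G z)
    rw [abs_mul, abs_mul] at a4
    rw [abs_mul (Tv σ W G M κ z), abs_of_nonneg T0] at a3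
    have c1 := mul_le_mul (hd j) (tb.g1 i) (abs_nonneg _) d0
    have c2 := mul_le_mul (hd i) (tb.g1 j) (abs_nonneg _) d0
    have c3 : Tv σ W G M κ z * |σ.D i (σ.D j G) z| ≤ 2 * (C * G z) :=
      mul_le_mul hT (tb.g2 i j) (abs_nonneg _) (by norm_num)
    rw [abs_mul, abs_of_pos (by positivity : 0 < 1 / (M * κ))]
    have c4 := mul_le_mul_of_nonneg_left b1 (by positivity : 0 ≤ 1 / (M * κ))
    have c5 : 1 / (M * κ) * (Fintype.card ι * (2 * ((C₁ * κ * G z) * (C₁ * κ * G z) +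
        nn (gr σ W z) * (C * G z)))) = 2 * Fintype.card ι * (C₁ ^ 2 * κ * G z / M +
        nn (gr σ W z) * C / (M * κ)) * G z := by
      field_simp
    linarith
  exact le_of_mul_le_mul_right e3 G0

/-! ## The bounds on the layer -/

/-- The scalar bounds: `d` and `H` of the two theorems above. -/
theorem num_d {N w y : ℝ} (hM : 1 ≤ M) (hN : 1 ≤ N) (hC₁ : 1 ≤ C₁) (hC : 1 ≤ C) (w0 : 0 ≤ w)
    (hw : w ^ 2 ≤ 2 * M ^ 2 * y) (hy : 288 * C ^ 2 ≤ y) :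
    (2 * (N * w * C₁) / M + 2 * C) ^ 2 ≤ 17 * (N ^ 2 * C₁ ^ 2) * y := by
  have M0 : 0 < M := by linarith
  have y0 : 0 ≤ y := le_trans (by positivity) hy
  have e1 : (2 * (N * w * C₁) / M + 2 * C) ^ 2 ≤ 2 * (2 * (N * w * C₁) / M) ^ 2 + 8 * C ^ 2 := by
    nlinarith only [sq_nonneg (2 * (N * w * C₁) / M - 2 * C)]
  have e2 : (2 * (N * w * C₁) / M) ^ 2 = 4 * (N ^ 2 * C₁ ^ 2) * (w ^ 2 / M ^ 2) := by
    field_simp; ring
  have e3 : w ^ 2 / M ^ 2 ≤ 2 * y := by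
    rw [div_le_iff₀ (by positivity)]
    linarith only [hw]
  have e4 := mul_le_mul_of_nonneg_left e3 (by positivity : 0 ≤ 4 * (N ^ 2 * C₁ ^ 2))
  have e5 : 1 ≤ N ^ 2 * C₁ ^ 2 := by
    have h1 : 1 ≤ N ^ 2 := one_le_pow₀ hN
    have h2 : 1 ≤ C₁ ^ 2 := one_le_pow₀ hC₁
    have := mul_le_mul h1 h2 zero_le_one (by positivity)
    linarith only [this]
  have e6 := mul_le_mul_of_nonneg_right e5 y0
  rw [e2] at e1
  linarith only [e1, e4, e6, hy, y0]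

theorem num_H {N w y d : ℝ} (hM : 1 ≤ M) (hκ : 0 < κ) (hN : 1 ≤ N) (hC₁ : 1 ≤ C₁) (hC : 1 ≤ C)
    (w0 : 0 ≤ w) (d0 : 0 ≤ d) (hw : w ^ 2 ≤ 2 * M ^ 2 * y) (hy : 288 * C ^ 2 ≤ κ ^ 2 * y)
    (hκ1 : κ ≤ 1) (hd : d ^ 2 ≤ 17 * (N ^ 2 * C₁ ^ 2) * y) :
    2 * N * (C₁ ^ 2 * y + w * C / (M * κ)) + 2 * C * d + 2 * C ≤ 3 * (N * C₁ ^ 2 * y) := by
  have M0 : 0 < M := by linarith
  have k2 : κ ^ 2 ≤ 1 := pow_le_one₀ hκ.le hκ1
  have y0 : 0 ≤ y := by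
    by_contra hc
    have hc := not_le.1 hc
    have : κ ^ 2 * y ≤ 0 := mul_nonpos_of_nonneg_of_nonpos (by positivity) hc.le
    have : 0 < 288 * C ^ 2 := by positivity
    linarith
  have hy1 : 288 * C ^ 2 ≤ y := by
    have := mul_le_mul_of_nonneg_right k2 y0
    linarith only [this, hy]
  have NC : 1 ≤ N * C₁ ^ 2 := by
    have h2 : 1 ≤ C₁ ^ 2 := one_le_pow₀ hC₁
    have := mul_le_mul hN h2 zero_le_one (by positivity)
    linarith only [this]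
  have e1 : w * C / (M * κ) ≤ y / 12 := by
    rw [div_le_iff₀ (by positivity)]
    refine (pow_le_pow_iff_left₀ (by positivity) (by positivity) two_ne_zero).1 ?_
    have h1 : (w * C) ^ 2 ≤ (2 * M ^ 2 * y) * (κ ^ 2 * y / 288) := by
      rw [mul_pow]
      exact mul_le_mul hw (by linarith only [hy]) (by positivity) (by positivity)
    refine h1.trans (le_of_eq ?_)
    ring
  have e2 : C * d ≤ 1 / 4 * (N * C₁ * y) := by
    refine (pow_le_pow_iff_left₀ (by positivity) (by positivity) two_ne_zero).1 ?_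
    have h1 : (C * d) ^ 2 ≤ (y / 288) * (17 * (N ^ 2 * C₁ ^ 2) * y) := by
      rw [mul_pow]
      exact mul_le_mul (by linarith only [hy1]) hd (by positivity) (by positivity)
    have h2 : 0 ≤ N ^ 2 * C₁ ^ 2 * y ^ 2 := by positivity
    have h3 : (1 / 4 * (N * C₁ * y)) ^ 2 = 1 / 16 * (N ^ 2 * C₁ ^ 2 * y ^ 2) := by ring
    rw [h3]
    linarith only [h1, h2]
  have e3 : C ≤ C ^ 2 := by nlinarith only [hC]
  have e4 : N * C₁ * y ≤ N * C₁ ^ 2 * y := by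
    have : C₁ ≤ C₁ ^ 2 := by nlinarith only [hC₁]
    have h1 := mul_le_mul_of_nonneg_left this (by positivity : 0 ≤ N * y)
    linarith only [h1]
  have e5 := mul_le_mul_of_nonneg_right NC y0
  have e6 := mul_le_mul_of_nonneg_left e1 (by positivity : 0 ≤ 2 * N)
  have e7 : N * y ≤ N * C₁ ^ 2 * y := by
    have h2 : 1 ≤ C₁ ^ 2 := one_le_pow₀ hC₁
    have h1 := mul_le_mul_of_nonneg_left h2 (by positivity : 0 ≤ N * y)
    linarith only [h1]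
  linarith only [e2, e3, e4, e5, e6, e7, hy1, y0]

variable [DecidableEq ι] {τ : Sl E ι} {ε B : ℝ}

/-- **The bounds of the angle.** -/
theorem ang [Nonempty ι] (hB : HB B) (ok : σ.Ok Ω θ) (hW : Sm Ω W) (hG : Sm Ω G)
    (h0 : ∀ z ∈ Ω, 1 ≤ G z) (hM : 1 ≤ M) (hκ : 0 < κ) (hκ1 : κ ≤ 1) (hC₁ : 1 ≤ C₁) (hC : 1 ≤ C)
    (hz : z ∈ Ω) (tb : TB σ τ W G κ C₁ C z) (hε : 20 * (Fintype.card ι * ε) ≤ 1)
    (sb : Sb σ ε z) (hG2 : 288 * C ^ 2 * M ≤ κ ^ 3 * G z) :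
    dD σ (fun z => Hc (Tv σ W G M κ z)) z ≤
        25 * B ^ 2 * (Fintype.card ι : ℝ) ^ 3 * C₁ ^ 2 / M * (κ * G z) ∧
      dD τ (fun z => Hc (Tv σ W G M κ z)) z ≤
        25 * B ^ 2 * (Fintype.card ι : ℝ) ^ 3 * C₁ ^ 2 / M * (κ * G z) ∧
      |σ.Λ (fun z => Hc (Tv σ W G M κ z)) z| ≤
        25 * B ^ 2 * (Fintype.card ι : ℝ) ^ 3 * C₁ ^ 2 / M * (κ * G z) := by
  have hΩ := ok.op
  have M0 : 0 < M := by linarith
  have G1 := h0 z hz
  have N1 : (1:ℝ) ≤ Fintype.card ι := by exact_mod_cast Fintype.card_pos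
  have B1 := hB.one
  obtain ⟨N, hN⟩ : ∃ N : ℝ, N = Fintype.card ι := ⟨_, rfl⟩
  have sT := sTv ok hW hG h0 M0 hκ
  rw [dD_H σ hΩ sT hz, dD_H τ hΩ sT hz, Λ_H ok sT hz]
  obtain ⟨T, hT⟩ : ∃ T, T = Tv σ W G M κ z := ⟨_, rfl⟩
  rw [← hT]
  have R0 : 0 ≤ 25 * B ^ 2 * (Fintype.card ι : ℝ) ^ 3 * C₁ ^ 2 / M * (κ * G z) := by positivity
  by_cases hl : T ≤ 1 ∨ 2 ≤ T
  · obtain ⟨z1, z2⟩ := Hc_off hl
    rw [z1, z2]
    simpa using R0
  have hl := not_or.1 hl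
  have T2 : T ≤ 2 := (not_le.1 hl.2).le
  obtain ⟨w, hw⟩ : ∃ w, w = nn (gr σ W z) := ⟨_, rfl⟩
  have w0 : 0 ≤ w := by rw [hw]; exact nn_nonneg _
  obtain ⟨y, hy⟩ : ∃ y, y = κ * G z / M := ⟨_, rfl⟩
  have y0 : 0 < y := by rw [hy]; positivity
  have w2 : w ^ 2 ≤ 2 * M ^ 2 * y := by
    have e1 : dD σ W z = T * (M * κ * G z) := by
      rw [hT]; unfold Tv
      have : M * κ * G z ≠ 0 := by positivity
      field_simp
    rw [hw, ← dD_nn, e1, hy]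
    have e2 : 2 * M ^ 2 * (κ * G z / M) = 2 * (M * κ * G z) := by field_simp
    rw [e2]
    exact mul_le_mul_of_nonneg_right T2 (by positivity)
  have hy2 : 288 * C ^ 2 ≤ κ ^ 2 * y := by
    rw [hy, ← mul_div_assoc, le_div_iff₀ M0]
    linarith only [hG2]
  have hy1 : 288 * C ^ 2 ≤ y := by
    have k2 : κ ^ 2 ≤ 1 := pow_le_one₀ hκ.le hκ1
    have := mul_le_mul_of_nonneg_right k2 y0.le
    linarith only [this, hy2]
  obtain ⟨d, hd⟩ : ∃ d, d = 2 * (Fintype.card ι * w * C₁) / M + 2 * C := ⟨_, rfl⟩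
  have d0 : 0 ≤ d := by rw [hd]; positivity
  have d2 : d ^ 2 ≤ 17 * ((Fintype.card ι : ℝ) ^ 2 * C₁ ^ 2) * y := by
    rw [hd]; exact num_d hM N1 hC₁ hC w0 w2 hy1
  have hTle : Tv σ W G M κ z ≤ 2 := by rw [← hT]; exact T2
  have D1 : ∀ j, |σ.D j (Tv σ W G M κ) z| ≤ d := fun j => by
    rw [hd, hw]
    exact D_Tv ok hW hG h0 M0 hκ σ hz tb.w2 tb.g1 hTle j
  have D2 : ∀ j, |τ.D j (Tv σ W G M κ) z| ≤ d := fun j => by
    rw [hd, hw]
    exact D_Tv ok hW hG h0 M0 hκ τ hz tb.wyx tb.g1' hTle j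
  have sq1 : ∀ ζ : Sl E ι, (∀ j, |ζ.D j (Tv σ W G M κ) z| ≤ d) →
      dD ζ (Tv σ W G M κ) z ≤ 17 * ((Fintype.card ι : ℝ) ^ 3 * C₁ ^ 2) * y := by
    intro ζ hζ
    unfold dD
    calc ∑ i, ζ.D i (Tv σ W G M κ) z ^ 2 ≤ ∑ _i : ι, d ^ 2 := by
          refine Finset.sum_le_sum fun i _ => ?_
          rw [← sq_abs]; exact pow_le_pow_left₀ (abs_nonneg _) (hζ i) 2
      _ = Fintype.card ι * d ^ 2 := by rw [Finset.sum_const, Finset.card_univ, nsmul_eq_mul]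
      _ ≤ Fintype.card ι * (17 * ((Fintype.card ι : ℝ) ^ 2 * C₁ ^ 2) * y) :=
          mul_le_mul_of_nonneg_left d2 (by positivity)
      _ = _ := by ring
  have a1 := sq1 σ D1
  have a2 := sq1 τ D2
  have nnH : 0 ≤ (Fintype.card ι : ℝ) ^ 3 * C₁ ^ 2 * y := by positivity
  have b1 : deriv Hc T ^ 2 ≤ B ^ 2 := by
    rw [← sq_abs]; exact pow_le_pow_left₀ (abs_nonneg _) (hB.d1 T) 2
  have eR : 25 * B ^ 2 * (Fintype.card ι : ℝ) ^ 3 * C₁ ^ 2 / M * (κ * G z) =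
      25 * B ^ 2 * ((Fintype.card ι : ℝ) ^ 3 * C₁ ^ 2 * y) := by rw [hy]; field_simp
  rw [eR]
  have BB : 0 ≤ B ^ 2 * ((Fintype.card ι : ℝ) ^ 3 * C₁ ^ 2 * y) := by positivity
  have fin1 : ∀ x : ℝ, 0 ≤ x → x ≤ 17 * ((Fintype.card ι : ℝ) ^ 3 * C₁ ^ 2) * y →
      deriv Hc T ^ 2 * x ≤ 25 * B ^ 2 * ((Fintype.card ι : ℝ) ^ 3 * C₁ ^ 2 * y) := by
    intro x x0 hx
    have h1 := mul_le_mul b1 hx x0 (by positivity)
    linarith only [h1, BB]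
  refine ⟨fin1 _ (Finset.sum_nonneg fun _ _ => sq_nonneg _) a1,
    fin1 _ (Finset.sum_nonneg fun _ _ => sq_nonneg _) a2, ?_⟩
  -- `Λ`
  have h2 : ∀ i j, |σ.D i (σ.D j (Tv σ W G M κ)) z| ≤ 3 * (Fintype.card ι * C₁ ^ 2 * y) := by
    intro i j
    refine (DD_Tv ok hW hG h0 M0 hκ (by linarith) hz tb hTle D1 i j).trans ?_
    have := num_H (N := Fintype.card ι) hM hκ N1 hC₁ hC w0 d0 w2 hy2 hκ1 d2
    rw [← hw]
    have e : C₁ ^ 2 * κ * G z / M = C₁ ^ 2 * y := by rw [hy]; ring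
    rw [e]
    exact this
  have dy : d ≤ Fintype.card ι * C₁ ^ 2 * y := by
    refine (pow_le_pow_iff_left₀ d0 (by positivity) two_ne_zero).1 (d2.trans ?_)
    have h3 : 17 ≤ y := by nlinarith only [hy1, hC]
    have h4 : (1:ℝ) ≤ C₁ ^ 2 := one_le_pow₀ hC₁
    have h5 : 17 * y ≤ y * y := mul_le_mul_of_nonneg_right h3 y0.le
    have h6 : 17 * y ≤ C₁ ^ 2 * y ^ 2 := by
      have := mul_le_mul_of_nonneg_right h4 (sq_nonneg y)
      nlinarith only [this, h5]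
    have h7 := mul_le_mul_of_nonneg_left h6 (by positivity :
      0 ≤ (Fintype.card ι : ℝ) ^ 2 * C₁ ^ 2)
    nlinarith only [h7]
  have ε1 : ε ≤ 1 / 20 := sb.ε1 hε
  have hΛ := sb.Λ_le hε h2 D1
  have hΛ' : |σ.Λ (Tv σ W G M κ) z| ≤ 7 * ((Fintype.card ι : ℝ) ^ 3 * C₁ ^ 2 * y) := by
    refine hΛ.trans ?_
    have h3 : ε * d ≤ 1 / 20 * (Fintype.card ι * C₁ ^ 2 * y) := by
      have h31 : ε * d ≤ 1 / 20 * d := mul_le_mul_of_nonneg_right ε1 d0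
      linarith only [h31, dy]
    have h4 : 0 ≤ Fintype.card ι * C₁ ^ 2 * y := by positivity
    have h5 := mul_le_mul_of_nonneg_left (by linarith only [h3, h4] :
      2 * (3 * (Fintype.card ι * C₁ ^ 2 * y)) + ε * d ≤ 7 * (Fintype.card ι * C₁ ^ 2 * y))
      (by positivity : 0 ≤ (Fintype.card ι : ℝ) ^ 2)
    refine h5.trans (le_of_eq ?_)
    ring
  have hΓ : |σ.Γ (Tv σ W G M κ) (Tv σ W G M κ) z| ≤
      18 * ((Fintype.card ι : ℝ) ^ 3 * C₁ ^ 2 * y) := by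
    refine (sb.Γ_le hε _ _).trans ?_
    have h3 : nn (gr σ (Tv σ W G M κ) z) * nn (gr σ (Tv σ W G M κ) z) =
        dD σ (Tv σ W G M κ) z := by rw [dD_nn]; ring
    rw [h3]
    linarith only [a1, nnH]
  have h3 := abs_add_le (deriv Hc T * σ.Λ (Tv σ W G M κ) z)
    (deriv (deriv Hc) T * σ.Γ (Tv σ W G M κ) (Tv σ W G M κ) z)
  rw [abs_mul, abs_mul] at h3
  have h4 := mul_le_mul (hB.d1 T) hΛ' (abs_nonneg _) (by linarith)
  have h5 := mul_le_mul (hB.d2 T) hΓ (abs_nonneg _) (by linarith)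
  have h6 : B ≤ B ^ 2 := by nlinarith only [B1]
  have h7 := mul_le_mul_of_nonneg_right h6 nnH
  linarith only [h3, h4, h5, h7]

end Vale.Agent.P088.R2.H660.G
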