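import Vale.Agent.P088.R2.H747.P.Dt

/-!
# P088, stage 3: the flat pass, the statement of the zone
-/

open MeasureTheory Set Filter
open scoped ContDiff Topology

noncomputable section

namespace Vale.Agent.P088.R2.H660.G

open Vale.Agent.P088.R2.H961.GW Vale.Agent.P088.R2.H644 Vale.Agent.P088.R2.H960.W
  Vale.Agent.P088.R2.H230.W Vale.Agent.P088.R2.H551.E Vale.Agent.P088.R2.H660.P
open Vale.Agent.P088.R2.H747.P (Dt)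

/-- The function of the cost. -/
def omG {E ι : Type*} [NormedAddCommGroup E] [NormedSpace ℝ E] [Fintype ι] (σ τ : Sl E ι)
    (χ : E → ℝ) (z : E) : ℝ :=
  dD σ χ z + dD τ χ z + σ.Λ χ z ^ 2 + τ.Λ χ z ^ 2

variable (E ι : Type*) [NormedAddCommGroup E] [NormedSpace ℝ E] [Fintype ι] [DecidableEq ι]
  [MeasureSpace E] [FiniteDimensional ℝ E] [BorelSpace E]
  [(volume : Measure E).IsAddHaarMeasure]

/-- **The zone of the flat pass** (`3 ≤ card ι`); `σ` is the slot of the critical gradient. -/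
def ZoneP : Prop :=
  ∀ C₁ : ℝ, 1 ≤ C₁ → ∃ β εz CP : ℝ, 0 < β ∧ 0 < εz ∧ 0 < CP ∧
  ∀ κ : ℝ, 0 < κ → κ ≤ 1 → ∃ ρ : ℝ, 0 < ρ ∧
  ∀ C : ℝ, 1 ≤ C → ∃ N₁ ε : ℝ, 1 ≤ N₁ ∧ 0 < ε ∧
  ∀ (σ τ : Sl E ι) (Ω : Set E) (θ v₁ v₂ W G K χ : E → ℝ) (h e : ι → E → ℝ),
    σ.Ok univ θ → τ.Ok univ θ → (∀ z, σ.ρ z = 1) → (∀ i z, σ.k i z = 0) →
    Sm univ v₁ → Sm univ v₂ → Sm univ W → Sm univ χ → IsOpen Ω → Sm Ω G → Sm Ω K →
    (∀ i, Sm Ω (h i)) → (∀ i, Sm Ω (e i)) → tsupport χ ⊆ Ω →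
    (∀ z ∈ Ω, N₁ ≤ G z ∧ Dt σ τ v₁ v₂ W G K h e κ C₁ C β ε εz z) →
    Zone σ τ univ θ v₁ v₂ W χ ((MP σ τ W G ρ).sm fun z => χ z ^ 2)
      (coP σ τ W G (omG σ τ χ) CP)

end Vale.Agent.P088.R2.H660.G
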