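import Vale.Agent.P088.R2.H660.G.Add
import Vale.Agent.P088.R2.H660.G.Num
import Vale.Agent.P088.R2.H660.G.Tb
import Vale.Agent.P088.R2.H660.G.ZoneP

/-!
# P088, stage 3: the flat pass, the two zones glued: the payment at a point
-/

open MeasureTheory Set Filter
open scoped ContDiff Topology

noncomputable section

namespace Vale.Agent.P088.R2.H660.G

open Vale.Agent.P088.R2.H961.GW Vale.Agent.P088.R2.H644 Vale.Agent.P088.R2.H960.W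
  Vale.Agent.P088.R2.H230.W Vale.Agent.P088.R2.H551.E Vale.Agent.P088.R2.H660.P
open Vale.Agent.P088.R2.H747.SW (MA coA MA_ct coA_ct rh rh_nonneg sm_cut Dz Gz)

variable {E ι : Type*} [NormedAddCommGroup E] [NormedSpace ℝ E] [Fintype ι] [DecidableEq ι]

section pw

variable {σ τ : Sl E ι} {U Ω S : Set E} {θ v₁ v₂ W G χ φ : E → ℝ} {z : E}
  {M κ β c₀ η Cz δ ρ CP ε : ℝ}

omit [DecidableEq ι] in
theorem dD_nonneg (σ : Sl E ι) (χ : E → ℝ) (z : E) : 0 ≤ dD σ χ z :=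
  Finset.sum_nonneg fun _ _ => sq_nonneg _

omit [DecidableEq ι] in
theorem omG_nonneg (σ τ : Sl E ι) (χ : E → ℝ) (z : E) : 0 ≤ omG σ τ χ z := by
  have h1 := dD_nonneg σ χ z
  have h2 := dD_nonneg τ χ z
  unfold omG
  positivity

omit [DecidableEq ι] in
theorem omG_1 (σ τ : Sl E ι) (χ : E → ℝ) (z : E) : dD σ χ z ≤ omG σ τ χ z := by
  have h2 := dD_nonneg τ χ z
  have := sq_nonneg (σ.Λ χ z); have := sq_nonneg (τ.Λ χ z)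
  unfold omG
  linarith

omit [DecidableEq ι] in
theorem omG_2 (σ τ : Sl E ι) (χ : E → ℝ) (z : E) : dD τ χ z ≤ omG σ τ χ z := by
  have h2 := dD_nonneg σ χ z
  have := sq_nonneg (σ.Λ χ z); have := sq_nonneg (τ.Λ χ z)
  unfold omG
  linarith

omit [DecidableEq ι] in
theorem omG_3 (σ τ : Sl E ι) (χ : E → ℝ) (z : E) : σ.Λ χ z ^ 2 ≤ omG σ τ χ z := by
  have h2 := dD_nonneg σ χ z
  have h1 := dD_nonneg τ χ z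
  have := sq_nonneg (τ.Λ χ z)
  unfold omG
  linarith

/-- `Γ` against `|D|²`. -/
theorem Γ_dD {σ : Sl E ι} (sx : Sb σ ε z) (hε : 20 * (Fintype.card ι * ε) ≤ 1) (f : E → ℝ) :
    |σ.Γ f f z| ≤ 21 / 20 * dD σ f z := by
  have := sx.Γ_le hε f f
  rw [dD_nn]
  linarith

theorem Γ_sq {σ : Sl E ι} (sx : Sb σ ε z) (hε : 20 * (Fintype.card ι * ε) ≤ 1) (f g : E → ℝ) :
    σ.Γ f g z ^ 2 ≤ 21 / 20 * (21 / 20) * (dD σ f z * dD σ g z) := by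
  have h1 := sx.Γ_le hε f g
  rw [dD_nn, dD_nn, ← sq_abs]
  have h2 := pow_le_pow_left₀ (abs_nonneg _) h1 2
  refine h2.trans (le_of_eq ?_)
  ring

omit [DecidableEq ι] in
theorem GN.CP0 (g : GN M κ β c₀ η Cz δ ρ CP) : 0 ≤ CP := by
  have h1 := g.cP
  have h2 := g.η0
  have h3 : 0 ≤ 7 / η := by positivity
  have h4 : 0 ≤ 43800 * Cz ^ 2 := by positivity
  linarith

/-- The facts at a point. -/
structure FA (σ τ : Sl E ι) (W G χ φ : E → ℝ) (κ δ : ℝ) (z : E) : Prop where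
  G60 : 60 ≤ G z
  a1 : dD σ φ z ≤ δ * (κ * G z)
  a2 : dD τ φ z ≤ δ * (κ * G z)
  a3 : |σ.Λ φ z| ≤ δ * (κ * G z)
  lo : G z ≤ nn (gr τ W z)
  F1 : σ.F W z ≤ 21 / 20 * nn (gr σ W z) ^ 2
  F2 : 19 / 20 * nn (gr σ W z) ^ 2 ≤ σ.F W z
  F2' : 19 / 20 * nn (gr τ W z) ^ 2 ≤ τ.F W z
  Γp : |σ.Γ φ φ z| ≤ 21 / 20 * dD σ φ z
  Γx : σ.Γ χ φ z ^ 2 ≤ 21 / 20 * (21 / 20) * (dD σ χ z * dD σ φ z)
  Γo : σ.Γ (co χ φ) (co χ φ) z ≤ 21 / 20 * dD σ (co χ φ) z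
  Γo' : τ.Γ (co χ φ) (co χ φ) z ≤ 21 / 20 * dD τ (co χ φ) z
  Di : dD σ (ci χ φ) z ≤ 2 * (Real.cos (φ z) ^ 2 * dD σ χ z) +
    2 * (χ z ^ 2 * Real.sin (φ z) ^ 2 * dD σ φ z)
  Di' : dD τ (ci χ φ) z ≤ 2 * (Real.cos (φ z) ^ 2 * dD τ χ z) +
    2 * (χ z ^ 2 * Real.sin (φ z) ^ 2 * dD τ φ z)
  Do : dD σ (co χ φ) z ≤ 2 * (Real.sin (φ z) ^ 2 * dD σ χ z) +
    2 * (χ z ^ 2 * Real.cos (φ z) ^ 2 * dD σ φ z)
  Do' : dD τ (co χ φ) z ≤ 2 * (Real.sin (φ z) ^ 2 * dD τ χ z) +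
    2 * (χ z ^ 2 * Real.cos (φ z) ^ 2 * dD τ φ z)
  L : σ.Λ (ci χ φ) z ^ 2 ≤ 4 * (Real.cos (φ z) ^ 2 * σ.Λ χ z ^ 2 +
      χ z ^ 2 * Real.sin (φ z) ^ 2 * σ.Λ φ z ^ 2 +
      χ z ^ 2 * Real.cos (φ z) ^ 2 * σ.Γ φ φ z ^ 2 +
      4 * (Real.sin (φ z) ^ 2 * σ.Γ χ φ z ^ 2))

theorem fa (hΩ : IsOpen Ω) (ok : σ.Ok Ω θ) (hχ : Sm Ω χ) (hφ : Sm Ω φ)
    (hz : z ∈ Ω) (sx : Sb σ ε z) (sy : Sb τ ε z) (hε : 20 * (Fintype.card ι * ε) ≤ 1)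
    (hG : 60 ≤ G z) (lo : G z ≤ nn (gr τ W z))
    (a1 : dD σ φ z ≤ δ * (κ * G z)) (a2 : dD τ φ z ≤ δ * (κ * G z))
    (a3 : |σ.Λ φ z| ≤ δ * (κ * G z)) : FA σ τ W G χ φ κ δ z :=
  { G60 := hG, a1 := a1, a2 := a2, a3 := a3, lo := lo
    F1 := sx.F_up hε W
    F2 := sx.F_lo hε W
    F2' := sy.F_lo hε W
    Γp := Γ_dD sx hε φ
    Γx := Γ_sq sx hε χ φ
    Γo := (abs_le.1 (Γ_dD sx hε _)).2
    Γo' := (abs_le.1 (Γ_dD sy hε _)).2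
    Di := dD_ci σ hΩ hχ hφ hz
    Di' := dD_ci τ hΩ hχ hφ hz
    Do := dD_co σ hΩ hχ hφ hz
    Do' := dD_co τ hΩ hχ hφ hz
    L := Λ_ci_sq ok hχ hφ hz }

theorem pay1 (f : FA σ τ W G χ φ κ δ z) (g : GN M κ β c₀ η Cz δ ρ CP) {r : ℝ} (r1 : r ≤ 1) :
    ρ * G z * χ z ^ 2 + 32 * η * (r * dD σ (co χ φ) z) ≤ CP * omG σ τ χ z +
      (χ z ^ 2 * Real.cos (φ z) ^ 2 * (2 * β * κ * G z) +
        χ z ^ 2 * Real.sin (φ z) ^ 2 * (c₀ * κ * G z)) := by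
  have l1 := ln1 g (by linarith [f.G60]) (sq_nonneg (χ z)) (Real.cos_sq_add_sin_sq (φ z))
    (dD_nonneg σ χ z) f.a1 f.Do (dD_nonneg σ _ z) r1
  have h2 := mul_le_mul_of_nonneg_left (omG_1 σ τ χ z) g.CP0
  linarith only [l1, h2]

theorem pay2 (f : FA σ τ W G χ φ κ δ z) (g : GN M κ β c₀ η Cz δ ρ CP) {r : ℝ} (r1 : r ≤ 1) :
    ρ * G z * χ z ^ 2 + (50 * dD τ (ci χ φ) z + 32 * η * (r * dD τ (co χ φ) z)) ≤
      CP * omG σ τ χ z + (χ z ^ 2 * Real.cos (φ z) ^ 2 * (G z / 4) +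
        χ z ^ 2 * Real.sin (φ z) ^ 2 * (c₀ * κ * G z)) := by
  have l1 := ln2 g (by linarith [f.G60]) (sq_nonneg (χ z)) (Real.cos_sq_add_sin_sq (φ z))
    (dD_nonneg τ χ z) f.a2 f.Di' f.Do' (dD_nonneg τ _ z) r1
  have h2 := mul_le_mul_of_nonneg_left (omG_2 σ τ χ z) g.CP0
  linarith only [l1, h2]

theorem pay3 (f : FA σ τ W G χ φ κ δ z) (g : GN M κ β c₀ η Cz δ ρ CP)
    (hs : Real.sin (φ z) ≠ 0 → M * κ * G z ≤ nn (gr σ W z) ^ 2)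
    (hc : Real.cos (φ z) ≠ 0 → nn (gr σ W z) ^ 2 ≤ 2 * M * κ * G z) {r : ℝ} (r1 : r ≤ 1) :
    ρ * (G z * (G z + σ.F W z)) * χ z ^ 2 +
      ((21900 * Cz ^ 2 * (σ.F W z * dD σ (ci χ φ) z) + κ * G z * dD σ (ci χ φ) z +
        σ.Λ (ci χ φ) z ^ 2) +
      (3 / η * (c₀ * κ * G z * σ.Γ (co χ φ) (co χ φ) z) +
        144 * η * (r * dD σ (co χ φ) z * nn (gr σ W z) ^ 2))) ≤
      CP * (omG σ τ χ z * (G z + σ.F W z)) +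
      (χ z ^ 2 * Real.cos (φ z) ^ 2 * (4 * κ ^ 2 * G z ^ 2) +
        χ z ^ 2 * Real.sin (φ z) ^ 2 * (1 / 3 * (c₀ * κ * G z * σ.F W z))) :=
  ln3 g (by linarith [f.G60]) (sq_nonneg (χ z)) (Real.cos_sq_add_sin_sq (φ z))
    (dD_nonneg σ χ z) (omG_1 σ τ χ z) (omG_3 σ τ χ z) f.a1 f.a3 f.F1 f.F2 hs hc f.Γp f.Γx
    f.Di f.Do (dD_nonneg σ _ z) f.Γo f.L r1

theorem pay4 (f : FA σ τ W G χ φ κ δ z) (g : GN M κ β c₀ η Cz δ ρ CP) {r : ℝ} (r1 : r ≤ 1) :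
    ρ * (G z * τ.F W z) * χ z ^ 2 + (310 * (τ.F W z * dD τ (ci χ φ) z) +
      (3 / η * (c₀ * κ * G z * τ.Γ (co χ φ) (co χ φ) z) +
        144 * η * (r * dD τ (co χ φ) z * nn (gr τ W z) ^ 2))) ≤
      CP * (omG σ τ χ z * τ.F W z) +
      (χ z ^ 2 * Real.cos (φ z) ^ 2 * (G z * τ.F W z / 24) +
        χ z ^ 2 * Real.sin (φ z) ^ 2 * (1 / 3 * (c₀ * κ * G z * τ.F W z))) := by
  have l1 := ln4 g f.G60 (sq_nonneg (χ z)) (Real.cos_sq_add_sin_sq (φ z))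
    (dD_nonneg τ χ z) f.a2 f.F2' f.lo f.Di' f.Do' (dD_nonneg τ _ z) f.Γo' r1
  have F0' : 0 ≤ τ.F W z := by have := sq_nonneg (nn (gr τ W z)); linarith [f.F2']
  have h2 := mul_le_mul_of_nonneg_left (mul_le_mul_of_nonneg_right (omG_2 σ τ χ z) F0') g.CP0
  linarith only [l1, h2]

theorem pay0 (χ φ : E → ℝ) (z : E) : 1 / 4 * χ z ^ 2 ≤
    1 / 2 * ci χ φ z ^ 2 + (1 - 1 / 2) * co χ φ z ^ 2 := by
  have := ci_co χ φ z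
  have := sq_nonneg (χ z)
  linarith

theorem ci2 (χ φ : E → ℝ) (z : E) : ci χ φ z ^ 2 = χ z ^ 2 * Real.cos (φ z) ^ 2 := by
  unfold ci; ring

theorem co2 (χ φ : E → ℝ) (z : E) : co χ φ z ^ 2 = χ z ^ 2 * Real.sin (φ z) ^ 2 := by
  unfold co; ring

end pw

end Vale.Agent.P088.R2.H660.G
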