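import Vale.Agent.P088.R2.H867.EP.Step
import Vale.Agent.P088.R2.H660.G.Ang

/-!
# P088, stage 3: the angle function and composition
-/

open MeasureTheory Set Filter
open scoped ContDiff Topology

noncomputable section

namespace Vale.Agent.P088.R2.H660.G

open Vale.Agent.P088.R2.H961.GW Vale.Agent.P088.R2.H644 Vale.Agent.P088.R2.H960.W
  Vale.Agent.P088.R2.H230.W Vale.Agent.P088.R2.H551.E Vale.Agent.P088.R2.H660.P
open Vale.Agent.P088.R2.H867.EP (Stp)

theorem st_stp : Stp Real.smoothTransition :=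
  ⟨Real.smoothTransition.contDiff, Real.smoothTransition.nonneg, Real.smoothTransition.le_one,
    ⟨0, fun _ h => Real.smoothTransition.zero_of_nonpos h⟩,
    ⟨1, fun _ h => Real.smoothTransition.one_of_one_le h⟩⟩

/-- The angle: `0` for `x ≤ 1`, `π / 2` for `x ≥ 2`. -/
def Hc (x : ℝ) : ℝ := Real.pi / 2 * Real.smoothTransition (x - 1)

theorem Hc_sm : ContDiff ℝ ∞ Hc :=
  contDiff_const.mul (Real.smoothTransition.contDiff.comp (contDiff_id.sub contDiff_const))

theorem dHc (x : ℝ) : deriv Hc x = Real.pi / 2 * deriv Real.smoothTransition (x - 1) := by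
  have h1 : HasDerivAt Real.smoothTransition (deriv Real.smoothTransition (x - 1)) (x - 1) :=
    ((Real.smoothTransition.contDiff (n := 1)).differentiable (by norm_num) _).hasDerivAt
  have h2 : HasDerivAt (fun x : ℝ => x - 1) 1 x := (hasDerivAt_id x).sub_const 1
  have h3 := (h1.comp x h2).const_mul (Real.pi / 2)
  rw [mul_one] at h3
  exact h3.deriv

theorem ddHc (x : ℝ) :
    deriv (deriv Hc) x = Real.pi / 2 * deriv (deriv Real.smoothTransition) (x - 1) := by
  have e : deriv Hc = fun x => Real.pi / 2 * deriv Real.smoothTransition (x - 1) := funext dHc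
  rw [e]
  have hs : ContDiff ℝ 1 (deriv Real.smoothTransition) := by
    have h := (contDiff_succ_iff_deriv (𝕜 := ℝ) (n := 1) (f := Real.smoothTransition)).1
      (Real.smoothTransition.contDiff (n := 1 + 1))
    exact h.2.2
  have h1 : HasDerivAt (deriv Real.smoothTransition)
      (deriv (deriv Real.smoothTransition) (x - 1)) (x - 1) :=
    (hs.differentiable (by norm_num) _).hasDerivAt
  have h2 : HasDerivAt (fun x : ℝ => x - 1) 1 x := (hasDerivAt_id x).sub_const 1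
  have h3 := (h1.comp x h2).const_mul (Real.pi / 2)
  rw [mul_one] at h3
  exact h3.deriv

/-- The bounds of the angle. -/
structure HB (B : ℝ) : Prop where
  one : 1 ≤ B
  d1 : ∀ x, |deriv Hc x| ≤ B
  d2 : ∀ x, |deriv (deriv Hc) x| ≤ B

theorem Hc_off {x : ℝ} (h : x ≤ 1 ∨ 2 ≤ x) : deriv Hc x = 0 ∧ deriv (deriv Hc) x = 0 := by
  have h' : x - 1 ≤ 0 ∨ 1 ≤ x - 1 := by
    rcases h with h | h
    · left; linarith
    · right; linarith
  have h1 := st_stp.vanish (j := 1) le_rfl h'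
  have h2 := st_stp.vanish (j := 2) (by norm_num) h'
  rw [iteratedDeriv_one] at h1
  rw [iteratedDeriv_succ, iteratedDeriv_one] at h2
  rw [dHc, ddHc, h1, h2]
  simp

theorem exists_HB : ∃ B, HB B := by
  obtain ⟨B₁, b1, h1⟩ := st_stp.bdd 1
  obtain ⟨B₂, b2, h2⟩ := st_stp.bdd 2
  have hp := Real.pi_pos
  have hp4 := Real.pi_le_four
  refine ⟨2 * (B₁ + B₂), by linarith, fun x => ?_, fun x => ?_⟩
  · have := h1 (x - 1)
    rw [iteratedDeriv_one] at this
    rw [dHc, abs_mul, abs_of_pos (by positivity)]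
    have h3 : Real.pi / 2 * |deriv Real.smoothTransition (x - 1)| ≤ 2 * B₁ :=
      mul_le_mul (by linarith) this (abs_nonneg _) (by norm_num)
    linarith
  · have := h2 (x - 1)
    rw [iteratedDeriv_succ, iteratedDeriv_one] at this
    rw [ddHc, abs_mul, abs_of_pos (by positivity)]
    have h3 : Real.pi / 2 * |deriv (deriv Real.smoothTransition) (x - 1)| ≤ 2 * B₂ :=
      mul_le_mul (by linarith) this (abs_nonneg _) (by norm_num)
    linarith

theorem Hc_sin {x : ℝ} (h : Real.sin (Hc x) ≠ 0) : 1 ≤ x := by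
  by_contra hc
  have hc := not_le.1 hc
  apply h
  unfold Hc
  rw [Real.smoothTransition.zero_of_nonpos (by linarith)]
  simp

theorem Hc_cos {x : ℝ} (h : Real.cos (Hc x) ≠ 0) : x ≤ 2 := by
  by_contra hc
  have hc := not_le.1 hc
  apply h
  unfold Hc
  rw [Real.smoothTransition.one_of_one_le (by linarith)]
  simp

variable {E ι : Type*} [NormedAddCommGroup E] [NormedSpace ℝ E] [Fintype ι]
variable {σ : Sl E ι} {Ω : Set E} {θ t : E → ℝ} {z : E}

theorem sHt (ht : Sm Ω t) : Sm Ω fun z => Hc (t z) := Hc_sm.comp_contDiffOn ht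

omit [Fintype ι] in
theorem D_H {H : ℝ → ℝ} (hH : ContDiff ℝ 1 H) (σ : Sl E ι) (hΩ : IsOpen Ω) (ht : Sm Ω t) (i : ι)
    (hz : z ∈ Ω) : σ.D i (fun z => H (t z)) z = deriv H (t z) * σ.D i t z := by
  have h1 : HasDerivAt H (deriv H (t z)) (t z) :=
    (hH.differentiable (by norm_num) _).hasDerivAt
  have h2 : HasFDerivAt t (fderiv ℝ t z) z := (ht.diff hΩ hz).hasFDerivAt
  have h3 := (h1.comp_hasFDerivAt z h2).fderiv
  simp only [Sl.D]
  have h4 : fderiv ℝ (fun z => H (t z)) z = deriv H (t z) • fderiv ℝ t z := h3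
  rw [h4]
  simp only [_root_.smul_apply, smul_eq_mul]
  ring

theorem Hc_C1 : ContDiff ℝ 1 Hc := Hc_sm.of_le (by exact_mod_cast le_top)

theorem dHc_sm : ContDiff ℝ ∞ (deriv Hc) := by
  have h := (contDiff_infty_iff_deriv (𝕜 := ℝ) (f := Hc)).1 Hc_sm
  exact h.2

theorem dHc_C1 : ContDiff ℝ 1 (deriv Hc) := dHc_sm.of_le (by exact_mod_cast le_top)

theorem dD_H (σ : Sl E ι) (hΩ : IsOpen Ω) (ht : Sm Ω t) (hz : z ∈ Ω) :
    dD σ (fun z => Hc (t z)) z = deriv Hc (t z) ^ 2 * dD σ t z := by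
  unfold dD
  rw [Finset.mul_sum]
  refine Finset.sum_congr rfl fun i _ => ?_
  rw [D_H Hc_C1 σ hΩ ht i hz]; ring

theorem Λ_H (ok : σ.Ok Ω θ) (ht : Sm Ω t) (hz : z ∈ Ω) :
    σ.Λ (fun z => Hc (t z)) z =
      deriv Hc (t z) * σ.Λ t z + deriv (deriv Hc) (t z) * σ.Γ t t z := by
  have hΩ := ok.op
  unfold Sl.Λ Sl.Γ
  rw [Finset.mul_sum, Finset.mul_sum, ← Finset.sum_add_distrib]
  refine Finset.sum_congr rfl fun i _ => ?_
  rw [Finset.mul_sum, Finset.mul_sum, ← Finset.sum_add_distrib]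
  refine Finset.sum_congr rfl fun j _ => ?_
  have sd : Sm Ω fun z => deriv Hc (t z) := dHc_sm.comp_contDiffOn ht
  have e1 : σ.D i (σ.D j (fun z => Hc (t z))) z = deriv (deriv Hc) (t z) * σ.D i t z * σ.D j t z +
      deriv Hc (t z) * σ.D i (σ.D j t) z := by
    have e2 : ∀ w ∈ Ω, σ.D j (fun z => Hc (t z)) w = deriv Hc (t w) * σ.D j t w :=
      fun w hw => D_H Hc_C1 σ hΩ ht j hw
    rw [D_congr σ hΩ e2 i hz, D_mul σ hΩ sd (ok.sD ht j) i hz, D_H dHc_C1 σ hΩ ht i hz]
  rw [e1, D_H Hc_C1 σ hΩ ht j hz]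
  ring

end Vale.Agent.P088.R2.H660.G
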