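import Vale.Agent.P088.R2.H660.G.Zg
import Vale.Agent.P088.R2.H285.W.PZP

/-!
# P088, stage 3: the flat pass, the choice of the numbers
-/

open MeasureTheory Set Filter
open scoped ContDiff Topology

noncomputable section

namespace Vale.Agent.P088.R2.H660.G

open Vale.Agent.P088.R2.H961.GW Vale.Agent.P088.R2.H644 Vale.Agent.P088.R2.H960.W
  Vale.Agent.P088.R2.H230.W Vale.Agent.P088.R2.H551.E Vale.Agent.P088.R2.H660.P
open Vale.Agent.P088.R2.H747.P (Dt)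

/-- `ρ` from the rest. -/
theorem num_ρ {M κ β η Cz δ CP : ℝ} (M1 : 1 ≤ M) (κ0 : 0 < κ) (κ1 : κ ≤ 1) (β0 : 0 < β)
    (β1 : 64 * β ≤ 1) (η0 : 0 < η) (η1 : η ≤ 1 / 200) (δ0 : 0 < δ)
    (d1 : 43800 * Cz ^ 2 * δ ≤ 1 / 96) (d2 : 5000 * δ ≤ 1 / 8) (d3 : 64 * η * δ ≤ β / 2)
    (d4 : 5 / 2 * δ ≤ η) (d5 : 1200 * (η * (M * δ)) ≤ 1)
    (cP : 43800 * Cz ^ 2 + 1000 + 7 / η ≤ CP) :
    ∃ ρ, 0 < ρ ∧ GN M κ β (1 / 8) η Cz δ ρ CP := by
  have kk : κ ^ 2 ≤ κ := by nlinarith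
  have k2 : 0 < κ ^ 2 := by positivity
  obtain ⟨ρ, hρ⟩ : ∃ ρ, ρ = β * κ ^ 2 / (400 * M) := ⟨_, rfl⟩
  have h400 : 0 < 400 * M := by positivity
  have ρ0 : 0 < ρ := by rw [hρ]; positivity
  have e : ρ * (400 * M) = β * κ ^ 2 := by rw [hρ]; field_simp
  have r400 : ρ * 400 ≤ β * κ ^ 2 := by
    rw [← e]
    have : ρ * 400 * 1 ≤ ρ * 400 * M := mul_le_mul_of_nonneg_left M1 (by positivity)
    linarith
  have bk : β * κ ^ 2 ≤ β * κ := mul_le_mul_of_nonneg_left kk β0.le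
  have bk2 : β * κ ≤ 1 / 64 * κ := mul_le_mul_of_nonneg_right (by linarith) κ0.le
  have q1 : ρ * (1 / κ ^ 2) ≤ 1 / 25600 := by
    rw [mul_one_div, div_le_iff₀ k2]
    have : β * κ ^ 2 ≤ 1 / 64 * κ ^ 2 := mul_le_mul_of_nonneg_right (by linarith) k2.le
    linarith
  have q2 : ρ * (M / κ) ≤ 1 / 25600 := by
    rw [← mul_div_assoc, div_le_iff₀ κ0]
    linarith
  have q3 : ρ * (1 / κ) ≤ 1 / 25600 := by
    rw [mul_one_div, div_le_iff₀ κ0]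
    linarith
  refine ⟨ρ, ρ0, M1, κ0, κ1, β0, by norm_num, by norm_num, η0, η1, δ0, by linarith, by linarith,
    d3, by linarith, d5, ρ0, ?_, ?_, ?_, ?_, ?_, cP⟩
  · have : 0 < β * κ := by positivity
    linarith
  · have : ρ * (1 / κ ^ 2 + 21 / 10 * (M / κ)) =
      ρ * (1 / κ ^ 2) + 21 / 10 * (ρ * (M / κ)) := by ring
    linarith
  · have : ρ * (20 / 19 * (1 / κ ^ 2) + 1 / κ) =
      20 / 19 * (ρ * (1 / κ ^ 2)) + ρ * (1 / κ) := by ring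
    linarith
  · linarith
  · linarith

/-- The numbers before `κ`. -/
theorem nums {B N C₁ Cz : ℝ} (B1 : 1 ≤ B) (N3 : 3 ≤ N) (C₁1 : 1 ≤ C₁) :
    ∃ η, 0 < η ∧ η ≤ 1 / 200 ∧ ∀ M₀, 1 ≤ M₀ → ∃ M β CP, 1 ≤ M ∧ M₀ ≤ M / 2 ∧ 0 < β ∧ 0 < CP ∧
      64 * β * (21 / 10 * (3 * M) + 3 * N ^ 2 * C₁) ≤ 1 ∧
      ∀ κ, 0 < κ → κ ≤ 1 → ∃ ρ, 0 < ρ ∧
        GN M κ β (1 / 8) η Cz (25 * B ^ 2 * N ^ 3 * C₁ ^ 2 / M) ρ CP := by
  obtain ⟨D, hD⟩ : ∃ D, D = 25 * B ^ 2 * N ^ 3 * C₁ ^ 2 := ⟨_, rfl⟩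
  obtain ⟨L, hL⟩ : ∃ L, L = 7 + 3 * N ^ 2 * C₁ := ⟨_, rfl⟩
  have D25 : 25 ≤ D := by
    have h1 : 1 ≤ B ^ 2 := one_le_pow₀ B1
    have h2 : 1 ≤ N ^ 3 := one_le_pow₀ (by linarith)
    have h3 : 1 ≤ C₁ ^ 2 := one_le_pow₀ C₁1
    have h4 : 1 ≤ B ^ 2 * N ^ 3 := one_le_mul_of_one_le_of_one_le h1 h2
    have h5 : 1 ≤ B ^ 2 * N ^ 3 * C₁ ^ 2 := one_le_mul_of_one_le_of_one_le h4 h3
    rw [hD]; linarith
  have L7 : 7 ≤ L := by
    rw [hL]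
    have : 0 ≤ 3 * N ^ 2 * C₁ := by positivity
    linarith
  have DL : D * 7 ≤ D * L := mul_le_mul_of_nonneg_left L7 (by linarith)
  have DL0 : 0 < D * L := by positivity
  obtain ⟨η, hη⟩ : ∃ η, η = 1 / (8192 * (D * L)) := ⟨_, rfl⟩
  have η0 : 0 < η := by rw [hη]; positivity
  have eη : η * (8192 * (D * L)) = 1 := by rw [hη]; field_simp
  have hηD : η * D * 7 ≤ η * (D * L) := by
    have := mul_le_mul_of_nonneg_left DL η0.le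
    linarith
  have η25 : η * 25 ≤ η * D := mul_le_mul_of_nonneg_left D25 η0.le
  refine ⟨η, η0, by linarith, fun M₀ hM₀ => ?_⟩
  obtain ⟨M, hM⟩ : ∃ M, M = 2 * M₀ + 96 * (43800 * Cz ^ 2 * D) + 40000 * D +
    5 / 2 * (D / η) := ⟨_, rfl⟩
  have m1 : 0 ≤ 43800 * Cz ^ 2 * D := by positivity
  have m2 : 0 ≤ D / η := by positivity
  have M1 : 1 ≤ M := by rw [hM]; linarith
  have M0 : 0 < M := by linarith
  have mD1 : 96 * (43800 * Cz ^ 2 * D) ≤ M := by rw [hM]; linarith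
  have mD2 : 40000 * D ≤ M := by rw [hM]; linarith
  have mD3 : 5 / 2 * (D / η) ≤ M := by rw [hM]; linarith
  obtain ⟨Q, hQ⟩ : ∃ Q, Q = 21 / 10 * (3 * M) + 3 * N ^ 2 * C₁ := ⟨_, rfl⟩
  have QL : Q ≤ M * L := by
    rw [hQ, hL]
    have h0 : 0 ≤ 3 * N ^ 2 * C₁ := by positivity
    have : 3 * N ^ 2 * C₁ * 1 ≤ 3 * N ^ 2 * C₁ * M := mul_le_mul_of_nonneg_left M1 h0
    linarith
  have Q1 : 1 ≤ Q := by
    rw [hQ]
    have h0 : 0 ≤ 3 * N ^ 2 * C₁ := by positivity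
    linarith
  have Q0 : 0 < Q := by linarith
  obtain ⟨β, hβ⟩ : ∃ β, β = 1 / (64 * Q) := ⟨_, rfl⟩
  have β0 : 0 < β := by rw [hβ]; positivity
  have eβ : 64 * β * Q = 1 := by rw [hβ]; field_simp
  have β64 : 64 * β ≤ 1 := by
    have : 64 * β * 1 ≤ 64 * β * Q := mul_le_mul_of_nonneg_left Q1 (by positivity)
    linarith
  refine ⟨M, β, 43800 * Cz ^ 2 + 1000 + 7 / η, M1, ?_, β0, ?_, ?_, fun κ κ0 κ1 => ?_⟩
  · rw [hM]; linarith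
  · have : 0 ≤ 7 / η := by positivity
    positivity
  · rw [← hQ]; exact eβ.le
  rw [← hD]
  have δ0 : 0 < D / M := by positivity
  refine num_ρ M1 κ0 κ1 β0 β64 η0 (by linarith) δ0 ?_ ?_ ?_ ?_ ?_ le_rfl
  · rw [← mul_div_assoc, div_le_iff₀ M0]; linarith
  · rw [← mul_div_assoc, div_le_iff₀ M0]; linarith
  · -- 64 η D / M ≤ β / 2
    rw [← mul_div_assoc, div_le_iff₀ M0]
    have h1 : 64 * η * D * (64 * β * Q) ≤ 64 * η * D * (64 * β * (M * L)) :=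
      mul_le_mul_of_nonneg_left (mul_le_mul_of_nonneg_left QL (by positivity)) (by positivity)
    rw [eβ] at h1
    have h2 : 64 * η * D * (64 * β * (M * L)) = 1 / 2 * (η * (8192 * (D * L))) * (β * M) := by
      ring
    rw [h2, eη] at h1
    linarith
  · rw [← mul_div_assoc, div_le_iff₀ M0]
    have h1 : η * (5 / 2 * (D / η)) ≤ η * M := mul_le_mul_of_nonneg_left mD3 η0.le
    have h2 : η * (5 / 2 * (D / η)) = 5 / 2 * D := by field_simp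
    linarith
  · have : M * (D / M) = D := by field_simp
    rw [this]
    linarith

/-- The lower bound of `G`. -/
theorem numsG {N M β κ C Cz N₀ : ℝ} (N3 : 3 ≤ N) (M1 : 1 ≤ M) (β0 : 0 < β) (κ0 : 0 < κ)
    (C1 : 1 ≤ C) (h0 : 1 ≤ N₀) : ∃ N₁, 1 ≤ N₁ ∧ ∀ G, N₁ ≤ G →
      N₀ ≤ G ∧ 60 ≤ G ∧ 288 * C ^ 2 * M ≤ κ ^ 3 * G ∧ NG N (3 * M) β κ C Cz G := by
  have b0 : 0 < β * κ := mul_pos β0 κ0
  have c7 := c7_nn (C := C) (by linarith) b0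
  have c8 := c8_nn (C := C) (by linarith) b0
  have d1 := D1_nn (N := N) (C := C) (by linarith) (by linarith)
  have d2 := H1_nn (N := N) (C := C) (by linarith) (by linarith)
  have k2 : 0 < κ ^ 2 := by positivity
  have k3 : 0 < κ ^ 3 := by positivity
  have t1 : 0 ≤ 288 * C ^ 2 * M / κ ^ 3 := by positivity
  have t2 : 0 ≤ 3 * M / κ := by positivity
  have t3 : 0 ≤ 384 * β * N ^ 2 * C / κ := by positivity
  have t4 : 0 ≤ 16 * P.c7 C β κ / κ ^ 2 := by positivity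
  have t5 : 0 ≤ 9 * (N * C) ^ 2 / κ := by positivity
  have t6 : 0 ≤ 3 * M * (1152 * Cz * C) ^ 2 / κ := by positivity
  have t7 : 0 ≤ 24 * (2 * (N ^ 2 * C + N * C + 16 * D1 N C + 5 + P.c8 C β κ) + 6 * H1 N C) := by
    positivity
  refine ⟨N₀ + 60 + 288 * C ^ 2 * M / κ ^ 3 + 3 * M / κ + 384 * β * N ^ 2 * C / κ +
    16 * P.c7 C β κ / κ ^ 2 + 9 * (N * C) ^ 2 / κ + 3 * M * (1152 * Cz * C) ^ 2 / κ +
    24 * (2 * (N ^ 2 * C + N * C + 16 * D1 N C + 5 + P.c8 C β κ) + 6 * H1 N C), by linarith,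
    fun G hG => ⟨by linarith, by linarith, ?_, ?_, ?_, ?_, ?_, ?_, by linarith⟩⟩
  · have : 288 * C ^ 2 * M / κ ^ 3 ≤ G := by linarith
    rw [div_le_iff₀ k3] at this; linarith
  · have : 3 * M / κ ≤ G := by linarith
    rw [div_le_iff₀ κ0] at this; linarith
  · have : 384 * β * N ^ 2 * C / κ ≤ G := by linarith
    rw [div_le_iff₀ κ0] at this; linarith
  · have : 16 * P.c7 C β κ / κ ^ 2 ≤ G := by linarith
    rw [div_le_iff₀ k2] at this; linarith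
  · have : 9 * (N * C) ^ 2 / κ ≤ G := by linarith
    rw [div_le_iff₀ κ0] at this; linarith
  · have : 3 * M * (1152 * Cz * C) ^ 2 / κ ≤ G := by linarith
    rw [div_le_iff₀ κ0] at this; linarith

end Vale.Agent.P088.R2.H660.G
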