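import Vale.Agent.P088.R2.H660.G.Glue

/-!
# P088, stage 3: the flat pass, the payment as an order of coefficients, and continuity
-/

open MeasureTheory Set Filter
open scoped ContDiff Topology

noncomputable section

namespace Vale.Agent.P088.R2.H660.G

open Vale.Agent.P088.R2.H961.GW Vale.Agent.P088.R2.H644 Vale.Agent.P088.R2.H960.W
  Vale.Agent.P088.R2.H230.W Vale.Agent.P088.R2.H551.E Vale.Agent.P088.R2.H660.P
open Vale.Agent.P088.R2.H747.SW (MA coA MA_ct coA_ct rh rh_nonneg sm_cut Dz Gz)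

variable {E ι : Type*} [NormedAddCommGroup E] [NormedSpace ℝ E] [Fintype ι] [DecidableEq ι]
  {σ τ : Sl E ι} {U Ω S : Set E} {θ v₁ v₂ W G χ φ : E → ℝ} {z : E}
  {M κ β c₀ η Cz δ ρ CP ε : ℝ}

/-- **The payment at a point of the zone.** -/
theorem pay_on (f : FA σ τ W G χ φ κ δ z) (g : GN M κ β c₀ η Cz δ ρ CP)
    (hs : Real.sin (φ z) ≠ 0 → M * κ * G z ≤ nn (gr σ W z) ^ 2)
    (hc : Real.cos (φ z) ≠ 0 → nn (gr σ W z) ^ 2 ≤ 2 * M * κ * G z) :
    Q8.Le (((MP σ τ W G ρ).sm fun z => χ z ^ 2) + (cIn σ τ W G (ci χ φ) κ Cz +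
        coA σ τ W (fun z => c₀ * κ * G z) (co χ φ) η))
      (coP σ τ W G (omG σ τ χ) CP + (((MIn τ W G κ β).sm fun z => ci χ φ z ^ 2) +
        ((MA σ τ W (fun z => c₀ * κ * G z) (1 / 2)).sm fun z => co χ φ z ^ 2))) z := by
  have G0 : 0 < G z := by linarith [f.G60]
  have r1 : rh (fun z => c₀ * κ * G z) z ≤ 1 := by
    have := g.κ0; have := g.c0
    have m0 : 0 ≤ c₀ * κ * G z := by positivity
    unfold rh
    rw [div_le_one (by positivity)]; linarith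
  have s1 : ∑ i, σ.D i (co χ φ) z ^ 2 = dD σ (co χ φ) z := rfl
  have s2 : ∑ i, τ.D i (co χ φ) z ^ 2 = dD τ (co χ φ) z := rfl
  have s3 : ∑ i, σ.D i W z ^ 2 = nn (gr σ W z) ^ 2 := dD_nn σ W z
  have s4 : ∑ i, τ.D i W z ^ 2 = nn (gr τ W z) ^ 2 := dD_nn τ W z
  have l0 := pay0 χ φ z
  have l1 := pay1 f g r1
  have l2 := pay2 f g r1
  have l3 := pay3 f g hs hc r1
  have l4 := pay4 f g r1
  rw [← ci2, ← co2] at l1 l2 l3 l4
  rw [← s1] at l1 l3
  rw [← s2] at l2 l4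
  rw [← s3] at l3
  rw [← s4] at l4
  refine ⟨?_, ?_, ?_, ?_, ?_, ?_, ?_, ?_⟩
  · simp only [Q8.add_def, Q8.sm, MP, cIn, coA, coP, MIn, MA, Pi.add_apply, Pi.mul_apply]
    linarith only [l0]
  · simp only [Q8.add_def, Q8.sm, MP, cIn, coA, coP, MIn, MA, Pi.add_apply, Pi.mul_apply]
    linarith only [l1]
  · simp only [Q8.add_def, Q8.sm, MP, cIn, coA, coP, MIn, MA, Pi.add_apply, Pi.mul_apply]
    linarith only [l2]
  · simp only [Q8.add_def, Q8.sm, MP, cIn, coA, coP, MIn, MA, Pi.add_apply, Pi.mul_apply]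
    norm_num
  · simp only [Q8.add_def, Q8.sm, MP, cIn, coA, coP, MIn, MA, Pi.add_apply, Pi.mul_apply]
    linarith only [l3]
  · simp only [Q8.add_def, Q8.sm, MP, cIn, coA, coP, MIn, MA, Pi.add_apply, Pi.mul_apply]
    linarith only [l4]
  · simp only [Q8.add_def, Q8.sm, MP, cIn, coA, coP, MIn, MA, Pi.add_apply, Pi.mul_apply]
    norm_num
  · simp only [Q8.add_def, Q8.sm, MP, cIn, coA, coP, MIn, MA, Pi.add_apply, Pi.mul_apply]
    norm_num

/-- The payment where everything vanishes. -/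
theorem pay_off (h0 : χ z = 0) (d1 : dD σ (ci χ φ) z = 0) (d2 : dD τ (ci χ φ) z = 0)
    (d3 : σ.Λ (ci χ φ) z = 0) (d4 : dD σ (co χ φ) z = 0) (d5 : dD τ (co χ φ) z = 0)
    (d6 : σ.Γ (co χ φ) (co χ φ) z = 0) (d7 : τ.Γ (co χ φ) (co χ φ) z = 0)
    (o : omG σ τ χ z = 0) :
    Q8.Le (((MP σ τ W G ρ).sm fun z => χ z ^ 2) + (cIn σ τ W G (ci χ φ) κ Cz +
        coA σ τ W (fun z => c₀ * κ * G z) (co χ φ) η))
      (coP σ τ W G (omG σ τ χ) CP + (((MIn τ W G κ β).sm fun z => ci χ φ z ^ 2) +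
        ((MA σ τ W (fun z => c₀ * κ * G z) (1 / 2)).sm fun z => co χ φ z ^ 2))) z := by
  have s1 : ∑ i, σ.D i (co χ φ) z ^ 2 = dD σ (co χ φ) z := rfl
  have s2 : ∑ i, τ.D i (co χ φ) z ^ 2 = dD τ (co χ φ) z := rfl
  have e1 : ci χ φ z = 0 := by unfold ci; rw [h0, zero_mul]
  have e2 : co χ φ z = 0 := by unfold co; rw [h0, zero_mul]
  refine ⟨?_, ?_, ?_, ?_, ?_, ?_, ?_, ?_⟩
  · simp only [Q8.add_def, Q8.sm, MP, cIn, coA, coP, MIn, MA, Pi.add_apply, Pi.mul_apply]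
    rw [h0, e1, e2]; norm_num
  · simp only [Q8.add_def, Q8.sm, MP, cIn, coA, coP, MIn, MA, Pi.add_apply, Pi.mul_apply]
    rw [h0, e1, e2, o, s1, d4]; norm_num
  · simp only [Q8.add_def, Q8.sm, MP, cIn, coA, coP, MIn, MA, Pi.add_apply, Pi.mul_apply]
    rw [h0, e1, e2, o, s2, d2, d5]; norm_num
  · simp only [Q8.add_def, Q8.sm, MP, cIn, coA, coP, MIn, MA, Pi.add_apply, Pi.mul_apply]
    norm_num
  · simp only [Q8.add_def, Q8.sm, MP, cIn, coA, coP, MIn, MA, Pi.add_apply, Pi.mul_apply]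
    rw [h0, e1, e2, o, s1, d1, d3, d4, d6]; norm_num
  · simp only [Q8.add_def, Q8.sm, MP, cIn, coA, coP, MIn, MA, Pi.add_apply, Pi.mul_apply]
    rw [h0, e1, e2, o, s2, d2, d5, d7]; norm_num
  · simp only [Q8.add_def, Q8.sm, MP, cIn, coA, coP, MIn, MA, Pi.add_apply, Pi.mul_apply]
    norm_num
  · simp only [Q8.add_def, Q8.sm, MP, cIn, coA, coP, MIn, MA, Pi.add_apply, Pi.mul_apply]
    norm_num

end Vale.Agent.P088.R2.H660.G
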