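import Vale.Agent.P088.R2.H660.G.Core

/-!
# P088, stage 3: the flat pass, the glued zone
-/

open MeasureTheory Set Filter
open scoped ContDiff Topology

noncomputable section

namespace Vale.Agent.P088.R2.H660.G

open Vale.Agent.P088.R2.H961.GW Vale.Agent.P088.R2.H644 Vale.Agent.P088.R2.H960.W
  Vale.Agent.P088.R2.H230.W Vale.Agent.P088.R2.H551.E Vale.Agent.P088.R2.H660.P
open Vale.Agent.P088.R2.H747.SW (MA coA MA_ct coA_ct rh rh_nonneg sm_cut Dz Gz)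
open Vale.Agent.P088.R2.H747.P (Dt)

section ct

variable {E ι : Type*} [NormedAddCommGroup E] [NormedSpace ℝ E] [Fintype ι]
  {σ τ : Sl E ι} {Ω : Set E} {θ W G χ : E → ℝ} {ρ CP : ℝ}

theorem s_om (ok : σ.Ok univ θ) (ot : τ.Ok univ θ) (hχ : Sm univ χ) :
    Sm univ (omG σ τ χ) :=
  (((sdD ok hχ).add (sdD ot hχ)).add ((ok.sL hχ).pow 2)).add ((ot.sL hχ).pow 2)

theorem om_off (ok : σ.Ok univ θ) (ot : τ.Ok univ θ) :
    ∀ z ∈ (univ : Set E), z ∉ tsupport χ → omG σ τ χ z = 0 := by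
  intro z hz hn
  have hS := isClosed_tsupport χ
  unfold omG
  rw [dDz (σ := σ) isOpen_univ hS (off_t χ) z hz hn, dDz (σ := τ) isOpen_univ hS (off_t χ) z hz hn,
    Lz ok hS (off_t χ) z hz hn, Lz ot hS (off_t χ) z hz hn]
  norm_num

theorem MP_ct (ok : σ.Ok univ θ) (ot : τ.Ok univ θ) (hW : Sm univ W) (hχ : Sm univ χ)
    (hΩ : IsOpen Ω) (hs : tsupport χ ⊆ Ω) (hG : Sm Ω G) :
    ((MP σ τ W G ρ).sm fun z => χ z ^ 2).Ct univ := by
  have hS := isClosed_tsupport χ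
  have hSU : univ ∩ tsupport χ ⊆ Ω := by rintro z ⟨-, h⟩; exact hs h
  have h0 := off_t χ
  have hc : Sm univ fun z => χ z ^ 2 := hχ.pow 2
  have h1 : Sm univ fun z => χ z ^ 2 * G z :=
    sm_cut isOpen_univ hΩ hS hSU ((hc.mono (subset_univ _)).mul hG) fun z hz hs => by
      rw [h0 z hz hs]; ring
  have h2 : Sm univ fun z => χ z ^ 2 * G z ^ 2 :=
    sm_cut isOpen_univ hΩ hS hSU ((hc.mono (subset_univ _)).mul (hG.pow 2)) fun z hz hs => by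
      rw [h0 z hz hs]; ring
  have h3 : Sm univ (τ.F W) := ot.sG hW hW
  have h4 : Sm univ (σ.F W) := ok.sG hW hW
  have c1 : Sm univ fun z => χ z ^ 2 * (ρ * G z) := by
    have : Sm univ fun z => ρ * (χ z ^ 2 * G z) := contDiffOn_const.mul h1
    exact this.congr fun z _ => by ring
  refine ⟨(hc.mul contDiffOn_const).continuousOn, c1.continuousOn, c1.continuousOn,
    (hc.mul contDiffOn_const).continuousOn, ?_, ?_, (hc.mul contDiffOn_const).continuousOn,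
    (hc.mul contDiffOn_const).continuousOn⟩
  · have : Sm univ fun z => ρ * (χ z ^ 2 * G z ^ 2 + χ z ^ 2 * G z * σ.F W z) :=
      contDiffOn_const.mul (h2.add (h1.mul h4))
    have : Sm univ fun z => χ z ^ 2 * (ρ * (G z * (G z + σ.F W z))) :=
      this.congr fun z _ => by ring
    exact this.continuousOn
  · have : Sm univ fun z => ρ * (χ z ^ 2 * G z * τ.F W z) := contDiffOn_const.mul (h1.mul h3)
    have : Sm univ fun z => χ z ^ 2 * (ρ * (G z * τ.F W z)) := this.congr fun z _ => by ring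
    exact this.continuousOn

theorem coP_ct (ok : σ.Ok univ θ) (ot : τ.Ok univ θ) (hW : Sm univ W) (hχ : Sm univ χ)
    (hΩ : IsOpen Ω) (hs : tsupport χ ⊆ Ω) (hG : Sm Ω G) :
    (coP σ τ W G (omG σ τ χ) CP).Ct univ := by
  have hS := isClosed_tsupport χ
  have hSU : univ ∩ tsupport χ ⊆ Ω := by rintro z ⟨-, h⟩; exact hs h
  have so := s_om ok ot hχ
  have h1 : Sm univ fun z => omG σ τ χ z * G z :=
    sm_cut isOpen_univ hΩ hS hSU ((so.mono (subset_univ _)).mul hG) fun z hz hn => by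
      rw [om_off ok ot z hz hn]; ring
  have h3 : Sm univ (τ.F W) := ot.sG hW hW
  have h4 : Sm univ (σ.F W) := ok.sG hW hW
  refine ⟨continuousOn_const, (contDiffOn_const.mul so).continuousOn,
    (contDiffOn_const.mul so).continuousOn, continuousOn_const, ?_,
    (contDiffOn_const.mul (so.mul h3)).continuousOn, continuousOn_const, continuousOn_const⟩
  have : Sm univ fun z => CP * (omG σ τ χ z * G z + omG σ τ χ z * σ.F W z) :=
    contDiffOn_const.mul (h1.add (so.mul h4))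
  have : Sm univ fun z => CP * (omG σ τ χ z * (G z + σ.F W z)) := this.congr fun z _ => by ring
  exact this.continuousOn

end ct

variable {E ι : Type*} [NormedAddCommGroup E] [NormedSpace ℝ E] [Fintype ι] [DecidableEq ι]
  {σ τ : Sl E ι} {Ω : Set E} {θ v₁ v₂ W G K χ : E → ℝ} {h e : ι → E → ℝ}
  {κ C₁ C β ε ε₁ εz Cz M η N₁ B ρ CP : ℝ} {z : E}

/-- The payment at a point of `Ω`. -/
theorem pay_z [Nonempty ι] (hB : HB B) (ok : σ.Ok univ θ)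
    (hW : Sm univ W) (hχ : Sm univ χ) (hΩ : IsOpen Ω) (hG : Sm Ω G)
    (g : GN M κ β (1 / 8) η Cz (25 * B ^ 2 * (Fintype.card ι : ℝ) ^ 3 * C₁ ^ 2 / M) ρ CP)
    (hC₁ : 1 ≤ C₁) (hC : 1 ≤ C) (hε : 20 * (Fintype.card ι * ε) ≤ 1)
    (D : ∀ z ∈ Ω, Dt σ τ v₁ v₂ W G K h e κ C₁ C β ε εz z) (hz : z ∈ Ω)
    (n2 : 60 ≤ G z) (n3 : 288 * C ^ 2 * M ≤ κ ^ 3 * G z) :
    Q8.Le (((MP σ τ W G ρ).sm fun z => χ z ^ 2) +
        (cIn σ τ W G (ci χ fun z => Hc (Tv σ W G M κ z)) κ Cz +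
        coA σ τ W (fun z => 1 / 8 * κ * G z) (co χ fun z => Hc (Tv σ W G M κ z)) η))
      (coP σ τ W G (omG σ τ χ) CP +
        (((MIn τ W G κ β).sm fun z => ci χ (fun z => Hc (Tv σ W G M κ z)) z ^ 2) +
        ((MA σ τ W (fun z => 1 / 8 * κ * G z) (1 / 2)).sm
          fun z => co χ (fun z => Hc (Tv σ W G M κ z)) z ^ 2))) z := by
  have M0 : 0 < M := by linarith [g.M1]
  have κ0 := g.κ0
  have d := D z hz
  have G1 : ∀ z ∈ Ω, 1 ≤ G z := fun z hz => (D z hz).wb.G1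
  have ok' := Ok_mono ok hΩ (subset_univ _)
  have hW' := hW.mono (subset_univ Ω)
  have sT : Sm Ω (Tv σ W G M κ) := sTv ok' hW' hG G1 M0 κ0
  have tb : TB σ τ W G κ C₁ C z := ⟨d.wb.w2, d.mx, d.w3, d.wb.g1, d.wb.g1', d.g2⟩
  obtain ⟨a1, a2, a3⟩ := ang hB ok' hW' hG G1 g.M1 κ0 g.κ1 hC₁ hC hz tb hε d.sx n3
  have f : FA σ τ W G χ (fun z => Hc (Tv σ W G M κ z)) κ _ z :=
    fa hΩ ok' (hχ.mono (subset_univ _)) (sHt sT) hz d.sx d.sy hε n2 d.wb.lo a1 a2 a3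
  refine pay_on f g (fun hs => ?_) fun hc => ?_
  · have h1 := Tv_ge M0 κ0 (G1 z hz) (Hc_sin hs)
    linarith
  · exact Tv_le M0 κ0 (G1 z hz) (Hc_cos hc)

/-- The payment off the support. -/
theorem pay_n {φ : E → ℝ} (ok : σ.Ok univ θ) (ot : τ.Ok univ θ)
    (hz : z ∉ tsupport χ) (c₀ : ℝ) :
    Q8.Le (((MP σ τ W G ρ).sm fun z => χ z ^ 2) + (cIn σ τ W G (ci χ φ) κ Cz +
        coA σ τ W (fun z => c₀ * κ * G z) (co χ φ) η))
      (coP σ τ W G (omG σ τ χ) CP + (((MIn τ W G κ β).sm fun z => ci χ φ z ^ 2) +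
        ((MA σ τ W (fun z => c₀ * κ * G z) (1 / 2)).sm fun z => co χ φ z ^ 2))) z := by
  have hS := isClosed_tsupport χ
  have hu := mem_univ z
  refine pay_off (off_t χ z hu hz) (dDz isOpen_univ hS (ci_t χ φ) z hu hz)
    (dDz isOpen_univ hS (ci_t χ φ) z hu hz) (Lz ok hS (ci_t χ φ) z hu hz)
    (dDz isOpen_univ hS (co_t χ φ) z hu hz) (dDz isOpen_univ hS (co_t χ φ) z hu hz)
    (Gz isOpen_univ hS (co_t χ φ) z hu hz) (Gz isOpen_univ hS (co_t χ φ) z hu hz)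
    (om_off ok ot z hu hz)

variable [MeasureSpace E] [FiniteDimensional ℝ E] [BorelSpace E]
  [(volume : Measure E).IsAddHaarMeasure]

/-- **The glued zone.** -/
theorem zone_gl [Nonempty ι] (H : PZ E ι εz Cz)
    (ho : OutB E ι C₁ (1 / 8) (1 / 3) η (1 / 2) (M / 2) κ C N₁ ε₁) (hB : HB B)
    (g : GN M κ β (1 / 8) η Cz (25 * B ^ 2 * (Fintype.card ι : ℝ) ^ 3 * C₁ ^ 2 / M) ρ CP)
    (na : NA (Fintype.card ι) C₁ (3 * M) β κ C ε Cz) (hε : ε ≤ ε₁)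
    (ok : σ.Ok univ θ) (ot : τ.Ok univ θ)
    (hρ : ∀ z, σ.ρ z = 1) (hk : ∀ i z, σ.k i z = 0) (hv₁ : Sm univ v₁) (hv₂ : Sm univ v₂)
    (hW : Sm univ W) (hχ : Sm univ χ) (hΩ : IsOpen Ω) (hG : Sm Ω G) (hK : Sm Ω K)
    (hh : ∀ i, Sm Ω (h i)) (he : ∀ i, Sm Ω (e i)) (hs : tsupport χ ⊆ Ω)
    (D : ∀ z ∈ Ω, Dt σ τ v₁ v₂ W G K h e κ C₁ C β ε εz z) (n1 : ∀ z ∈ Ω, N₁ ≤ G z)
    (n2 : ∀ z ∈ Ω, 60 ≤ G z) (n3 : ∀ z ∈ Ω, 288 * C ^ 2 * M ≤ κ ^ 3 * G z)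
    (n4 : ∀ z ∈ Ω, NG (Fintype.card ι) (3 * M) β κ C Cz (G z)) :
    Zone σ τ univ θ v₁ v₂ W χ ((MP σ τ W G ρ).sm fun z => χ z ^ 2)
      (coP σ τ W G (omG σ τ χ) CP) := by
  have M0 : 0 < M := by linarith [g.M1]
  have κ0 := g.κ0
  have G1 : ∀ z ∈ Ω, 1 ≤ G z := fun z hz => (D z hz).wb.G1
  have ok' := Ok_mono ok hΩ (subset_univ _)
  have hS := isClosed_tsupport χ
  have hSU : univ ∩ tsupport χ ⊆ Ω := by rintro z ⟨-, h⟩; exact hs h
  have sT : Sm Ω (Tv σ W G M κ) := sTv ok' (hW.mono (subset_univ _)) hG G1 M0 κ0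
  have s1 := sm_ci hΩ hχ (sHt sT) hs
  have s2 := sm_co hΩ hχ (sHt sT) hs
  have hm : Sm Ω fun z => 1 / 8 * κ * G z := contDiffOn_const.mul hG
  have hp : ∀ z ∈ Ω, 0 ≤ 1 / 8 * κ * G z := fun z hz => by
    have := G1 z hz
    positivity
  refine zone_add ok ot hv₁ hv₂ hW s1 s2 (fun z _ => ci_co χ _ z)
    (z_in H ok ot hρ hk hv₁ hv₂ hW hχ hΩ hG hK hh hs g.M1 na D n4)
    (z_out ho ok ot hv₁ hv₂ hW hχ hΩ hG he hs g.M1 κ0 hε D n1)
    (MP_ct ok ot hW hχ hΩ hs hG) (coP_ct ok ot hW hχ hΩ hs hG)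
    (MIn_ct ot hW s1 hΩ (subset_univ _) hS hSU (ci_t χ _) hG)
    (cIn_ct ok ot hW s1 hΩ (subset_univ _) hS hSU (ci_t χ _) hG)
    (MA_ct ok ot hW s2 hΩ (subset_univ _) hS hSU (co_t χ _) hm)
    (coA_ct ok ot hW s2 hΩ (subset_univ _) hS hSU (co_t χ _) hm hp) fun z _ a b => ?_
  have key : Q8.Le (((MP σ τ W G ρ).sm fun z => χ z ^ 2) +
        (cIn σ τ W G (ci χ fun z => Hc (Tv σ W G M κ z)) κ Cz +
        coA σ τ W (fun z => 1 / 8 * κ * G z) (co χ fun z => Hc (Tv σ W G M κ z)) η))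
      (coP σ τ W G (omG σ τ χ) CP +
        (((MIn τ W G κ β).sm fun z => ci χ (fun z => Hc (Tv σ W G M κ z)) z ^ 2) +
        ((MA σ τ W (fun z => 1 / 8 * κ * G z) (1 / 2)).sm
          fun z => co χ (fun z => Hc (Tv σ W G M κ z)) z ^ 2))) z := by
    by_cases hz : z ∈ tsupport χ
    · have hz' := hs hz
      exact pay_z hB ok hW hχ hΩ hG g na.C₁1 na.C1 na.ε1 D hz' (n2 z hz') (n3 z hz')
    · exact pay_n ok ot hz (1 / 8)
  have := Q8.dens_le (σ := σ) (τ := τ) (v₁ := v₁) (v₂ := v₂) (W := W) (a := a) (b := b) key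
  rw [Q8.dens_add, Q8.dens_add, Q8.dens_add, Q8.dens_add] at this
  exact this

end Vale.Agent.P088.R2.H660.G
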